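import Crest.Agent.R91.Chain

/-! Row 91: the four invariants. -/

set_option autoImplicit false
set_option linter.unusedSectionVars false
open Filter Topology BoundedContinuousFunction TopologicalSpace
open scoped RealInnerProductSpace

noncomputable section
namespace Crest.Agent.R91

section tools
variable {B : Type*} [NormedAddCommGroup B]

theorem Lip.add {L L' : ℝ} {F H : B → ℝ} (hF : Lip L F) (hH : Lip L' H) :
    Lip (L + L') (fun x => F x + H x) := by
  intro x y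
  rw [add_sub_add_comm, add_mul]
  exact (norm_add_le _ _).trans (add_le_add (hF x y) (hH x y))

theorem lip_inner {E : Type*} [NormedAddCommGroup E] [InnerProductSpace ℝ E] {L c : ℝ}
    {g : B → E} (hg : Lip L g) {γ : E} (hγ : ‖γ‖ ≤ c) :
    Lip (c * L) (fun x => ⟪γ, g x⟫) := by
  intro x y
  rw [← inner_sub_right, mul_assoc]
  exact (norm_inner_le_norm _ _).trans
    (mul_le_mul hγ (hg x y) (norm_nonneg _) ((norm_nonneg _).trans hγ))

theorem Calm.add {L L' : ℝ} {F H : B → ℝ} {x : B} (hF : Calm L F x) (hH : Calm L' H x) :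
    Calm (L + L') (fun x => F x + H x) x := by
  filter_upwards [hF, hH] with y h1 h2
  rw [add_sub_add_comm, add_mul]
  exact (abs_add_le _ _).trans (add_le_add h1 h2)

theorem Calm.mono {L L' : ℝ} {F : B → ℝ} {x : B} (hF : Calm L F x) (h : L ≤ L') :
    Calm L' F x := by
  filter_upwards [hF] with y h1
  exact h1.trans (mul_le_mul_of_nonneg_right h (norm_nonneg _))

theorem Calm.congr_add {L : ℝ} {F H : B → ℝ} {x : B} (hF : Calm L F x) (c : ℝ)
    (h : ∀ᶠ y in 𝓝 x, H y = F y + c) : Calm L H x := by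
  have h0 := h.self_of_nhds
  filter_upwards [hF, h] with y h1 h2
  rwa [h2, h0, add_sub_add_right_eq_sub]

end tools

variable {E T : Type} [NormedAddCommGroup E] [InnerProductSpace ℝ E] [NormedAddCommGroup T]
  [NormedSpace ℝ T] {D : Dat E T} {Φ : ℕ → Amb E T → ℝ} {𝓕 : Filter ℕ} {ik : ℕ → Idx}

/-- The Lipschitz constants of the new coordinates tend to zero. -/
theorem steps_free (hne : ∀ i, ∀ᶠ k in 𝓕, ik k ≠ i)
    (h : ∀ η : ℝ, 0 < η → ∀ᶠ k in 𝓕, Lip η (gg D Φ (ik k))) : Steps D Φ 𝓕 ik := by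
  refine ⟨1, fun k => {ik k}, fun F => ∃ L < (1 / 100 : ℝ), Lip L F, one_pos, le_rfl,
    fun k => rfl, ?_, ⟨0, by norm_num, fun x y => by simp⟩, ?_, ?_⟩
  · intro i
    filter_upwards [hne i] with k hk
    exact fun h => hk h.symm
  · rintro F ⟨L, hL, hF⟩
    exact hF.mono hL.le
  · rintro F ⟨L, hL, hF⟩ _
    filter_upwards [h ((1 / 100 - L) / 2) (by linarith)] with k hk
    refine ⟨ik k, rfl, 0, Or.inl rfl, fun γ hγ => ⟨L + 1 * ((1 / 100 - L) / 2), by linarith, ?_⟩⟩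
    simp only [inner_zero_left, add_zero]
    exact hF.add (lip_inner hk hγ)

theorem gg_lip (hΦ : Reg Φ) (i : Idx) : Lip 3 (gg D Φ i) := core_lip (hΦ.tr _) D _ _

theorem gg_eq_zero_of_rho {i : Idx} {x : Amb E T} (h : ‖x i.1‖ ≤ ww i.2.s ∨ WW i.2.s ≤ ‖x i.1‖) :
    gg D Φ i x = 0 := by
  by_contra hc
  have := eps_lt ((core_ne_zero D hc).trans (by norm_num))
  rcases h with h | h <;> linarith [this.1, this.2]

theorem continuous_rho (m : ℕ) : Continuous (fun x : Amb E T => ‖x m‖) :=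
  Lip.continuous (L := 1) (fun x y => by rw [one_mul]; exact amb_rho_sub_le x y m)

theorem inner_e0 (D : Dat E T) (t : ℝ) : ⟪D.e0, t • D.e0⟫ = t := by
  rw [inner_smul_right, real_inner_self_eq_norm_sq, D.he0]; simp

/-- One block, scales escaping. -/
theorem steps_block (hΦ : Reg Φ) (hne : ∀ i, ∀ᶠ k in 𝓕, ik k ≠ i) (m : ℕ)
    (hm : ∀ᶠ k in 𝓕, (ik k).1 = m) (hs : ∀ b : ℤ, ∀ᶠ k in 𝓕, b ≤ |(ik k).2.s|) :
    Steps D Φ 𝓕 ik := by
  refine ⟨1 / 300, fun k => {ik k}, fun F => Lip (1 / 100) F ∧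
    ∃ b : ℤ, 0 ≤ b ∧ ∀ x, (‖x m‖ ≤ ww (-b) ∨ WW b ≤ ‖x m‖) → F x = 0, by norm_num, by norm_num,
    fun k => rfl, ?_, ⟨fun x y => by simp, 0, le_rfl, fun _ _ => rfl⟩, fun F h => h.1, ?_⟩
  · intro i
    filter_upwards [hne i] with k hk
    exact fun h => hk h.symm
  rintro F ⟨hF, b, hb0, hb⟩ _
  filter_upwards [hm, hs (b + 8)] with k hk1 hk2
  refine ⟨ik k, rfl, 0, Or.inl rfl, fun γ hγ => ?_⟩
  simp only [inner_zero_left, add_zero]
  have hH : Lip (1 / 100) (fun x => ⟪γ, gg D Φ (ik k) x⟫) :=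
    (lip_inner (gg_lip hΦ (ik k)) hγ).mono (by norm_num)
  have hz : ∀ x : Amb E T, (‖x m‖ ≤ ww (ik k).2.s ∨ WW (ik k).2.s ≤ ‖x m‖) →
      ⟪γ, gg D Φ (ik k) x⟫ = 0 := fun x hx => by
    rw [gg_eq_zero_of_rho (by rwa [hk1]), inner_zero_right]
  set s := (ik k).2.s
  rcases le_abs.mp hk2 with h | h
  · refine ⟨?_, s, by omega, fun x hx => ?_⟩
    · have := hH.glue hF (continuous_rho m) (ww s) (fun x hx => hz x (Or.inl hx))
        (fun x hx => hb x (Or.inr ((WW_le_ww h).trans hx)))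
      simpa only [add_comm] using this
    · rcases hx with hx | hx
      · rw [hb x (Or.inl (hx.trans (ww_mono (by omega)))),
          hz x (Or.inl (hx.trans (ww_mono (by omega)))), add_zero]
      · rw [hb x (Or.inr ((WW_mono (by omega)).trans hx)), hz x (Or.inr hx), add_zero]
  · refine ⟨?_, -s, by omega, fun x hx => ?_⟩
    · exact hF.glue hH (continuous_rho m) (ww (-b)) (fun x hx => hb x (Or.inl hx))
        (fun x hx => hz x (Or.inr ((WW_le_ww (by omega)).trans hx)))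
    · rcases hx with hx | hx
      · rw [neg_neg] at hx
        rw [hb x (Or.inl (hx.trans (ww_mono (by omega)))), hz x (Or.inl hx), add_zero]
      · rw [hb x (Or.inr ((WW_mono (by omega)).trans hx)),
          hz x (Or.inr ((WW_mono (by omega)).trans hx)), add_zero]

/-- Blocks escaping, fixed level, scales essentially nondecreasing. -/
theorem steps_up (hΦ : Reg Φ) [𝓕.NeBot] (hm : Tendsto (fun k => (ik k).1) 𝓕 atTop) (l : ℕ)
    (hl : ∀ᶠ k in 𝓕, (ik k).2.t.lev = l)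
    (hs : ∀ᶠ k in 𝓕, ∀ᶠ k' in 𝓕, (ik k).2.s ≤ (ik k').2.s) : Steps D Φ 𝓕 ik := by
  have hl0 := lam_pos l
  have hd0 := del_pos l
  have hl1 := lam_le l
  have hK := Real.exp_pos 8000
  refine ⟨min (lam l / 3) (lam l * del l / (3 * Real.exp 8000)), fun k => {i | i.1 = (ik k).1},
    fun F => Lip (lam l) F ∧ ∃ s0 : ℤ, (∀ᶠ k in 𝓕, s0 ≤ (ik k).2.s) ∧
      ∀ x, |F x| ≤ lam l * del l * ww s0, by positivity, (min_le_left _ _).trans (by linarith),
    fun k => rfl, ?_, ⟨fun x y => by simp; positivity, ?_⟩, fun F h => h.1.mono hl1, ?_⟩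
  · intro i
    filter_upwards [hm.eventually_gt_atTop i.1] with k hk
    exact hk.ne
  · obtain ⟨k, hk⟩ := hs.exists
    refine ⟨_, hk, fun x => ?_⟩
    have := ww_pos (ik k).2.s
    simp only [abs_zero]; positivity
  rintro F ⟨hF, s0, hs0, hb⟩ ⟨j, rfl⟩
  filter_upwards [hm.eventually_gt_atTop j, hm.eventually_gt_atTop l, hl, hs, hs0]
    with k hk1 hk2 hk3 hk4 hk5
  set m := (ik k).1 with hm'
  set s := (ik k).2.s with hs'
  set n := (ik k).2.n with hn'
  have hw := ww_pos s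
  have hb' : ∀ x, |Φ j x| ≤ lam l * del l * ww s := fun x =>
    (hb x).trans (mul_le_mul_of_nonneg_left (ww_mono hk5) (by positivity))
  refine ⟨(m, ⟨s, n, .C j l⟩), rfl, D.e0, Or.inr rfl, fun γ hγ => ?_⟩
  have e : (fun x => Φ j x + ⟪γ, gg D Φ (ik k) x⟫ + ⟪D.e0, gg D Φ (m, ⟨s, n, .C j l⟩) x⟫) =
      fun x => clamp (Φ j x) (lam l * ww s * max (eps m (tr m Φ) s n x - DD l) 0) +
        ⟪γ, gg D Φ (ik k) x⟫ := by
    funext x
    simp only [gg, core, inner_e0, cC]
    rw [tr_of_lt hk1, if_pos ⟨hk1, hk2, hF, hb'⟩]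
    ring
  rw [e]
  have z1 : ∀ x, eps m (tr m Φ) s n x ≤ DD l →
      clamp (Φ j x) (lam l * ww s * max (eps m (tr m Φ) s n x - DD l) 0) = 0 := fun x hx => by
    rw [max_eq_right (by linarith), mul_zero, clamp_zero]
  have z2 : ∀ x, DD l ≤ eps m (tr m Φ) s n x → ⟪γ, gg D Φ (ik k) x⟫ = 0 := fun x hx => by
    rw [gg, core_eq_zero D _ _ x (by rw [hk3]; exact hx), inner_zero_right]
  refine ⟨Lip.glue ?_ ?_ (continuous_eps (hΦ.tr m) m s n) (DD l) z1 z2, s, hk4, fun x => ?_⟩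
  · intro x y
    exact (clamp_lip _ _ _ _).trans (max_le (hF x y) (cC_bound_lip (hΦ.tr m) m s n l x y))
  · exact (lip_inner (gg_lip hΦ (ik k)) (hγ.trans (min_le_left _ _))).mono (by linarith)
  · rw [congrFun e x]
    rcases le_total (eps m (tr m Φ) s n x) (DD l) with h | h
    · rw [z1 x h, zero_add]
      refine (abs_real_inner_le_norm _ _).trans ?_
      have a1 : ‖gg D Φ (ik k) x‖ ≤ 5 / 2 * WW s := core_amp_WW D _ _ x
      refine (mul_le_mul (hγ.trans (min_le_right _ _)) a1 (norm_nonneg _) (by positivity)).trans ?_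
      rw [WW_eq]
      have : lam l * del l / (3 * Real.exp 8000) * (5 / 2 * (Real.exp 8000 * ww s)) =
          5 / 6 * (lam l * del l * ww s) := by field_simp; ring
      rw [this]
      have : 0 < lam l * del l * ww s := by positivity
      linarith
    · rw [z2 x h, add_zero]
      exact (abs_clamp_le_abs _ (by positivity)).trans (hb' x)

theorem core_locally_zero (hΦ : Reg Φ) (m : ℕ) (q : Q) {x : Amb E T}
    (h : 3 < eps m Φ q.s q.n x) : ∀ᶠ y in 𝓝 x, core D m Φ q y = 0 := by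
  filter_upwards [(continuous_eps hΦ m q.s q.n).continuousAt.eventually (lt_mem_nhds h)] with y hy
  by_contra hc
  exact absurd (core_ne_zero D hc) (not_lt.mpr (le_of_lt hy))

theorem pos_tr {m j : ℕ} (hj : j < m) (s : ℤ) (x : Amb E T) :
    pos (tr m Φ) s x j = bet j * Φ j x / WW s := by
  unfold pos; rw [tr_of_lt hj]

theorem abs_le_of_pos {j : ℕ} {s s' : ℤ} (hs : s ≤ s') {a b : ℝ}
    (h : |bet j * a / WW s - bet j * b / WW s| ≤ 6) : |a - b| ≤ 6 * WW s' / bet j := by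
  have hW := WW_pos s
  have hb := bet_pos j
  rw [← sub_div, ← mul_sub, abs_div, abs_mul, abs_of_pos hW, abs_of_pos hb, div_le_iff₀ hW] at h
  rw [le_div_iff₀ hb]
  have := WW_mono hs
  linarith

/-- One step of the construction when the scales tend to `-∞`. -/
theorem down_step (hΦ : Reg Φ) (m : ℕ) (q : Q) (𝓗 : Filter (Amb E T)) (p : ℕ → ℝ)
    (hH : ∀ j, Tendsto (Φ j) 𝓗 (𝓝 (p j))) (jρ : ℕ) (hjρ : ∀ x, Φ jρ x = min ‖x m‖ 1)
    (j0 : ℕ) (hj0 : j0 < m) (hF : Lip (1 / 100) (Φ j0))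
    (hFH : ∀ᶠ x in 𝓗, Calm (1 / 300) (Φ j0) x) (hs : q.s ≤ -4) (xk : Amb E T)
    (hxk : gg D Φ (m, q) xk ≠ 0)
    (hS : ∀ x, (∀ j < m, |Φ j x - p j| ≤ |Φ j xk - p j| + 6 * WW (q.s + 4) / bet j) →
      Calm (1 / 300) (Φ j0) x) :
    ∃ q' : Q, ∃ u : E, (u = 0 ∨ u = D.e0) ∧ ∀ γ : E, ‖γ‖ ≤ 1 / 900 →
      Lip (1 / 100) (fun x => Φ j0 x + ⟪γ, gg D Φ (m, q) x⟫ + ⟪u, gg D Φ (m, q') x⟫) ∧
      ∀ᶠ x in 𝓗, Calm (1 / 300)
        (fun x => Φ j0 x + ⟪γ, gg D Φ (m, q) x⟫ + ⟪u, gg D Φ (m, q') x⟫) x := by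
  have hΦ' := hΦ.tr m
  have hH1 : ∀ γ : E, ‖γ‖ ≤ 1 / 900 → Lip (1 / 300) (fun x => ⟪γ, gg D Φ (m, q) x⟫) :=
    fun γ hγ => (lip_inner (gg_lip hΦ (m, q)) hγ).mono (by norm_num)
  have supp1 : ∀ x, eps m (tr m Φ) q.s q.n x ≤ 3 → Calm (1 / 300) (Φ j0) x := by
    intro x hx
    refine hS x (fun j hj => ?_)
    have a1 : Dst m (pos (tr m Φ) q.s x) q.n ≤ 3 := (le_max_right _ _).trans hx
    have a2 : Dst m (pos (tr m Φ) q.s xk) q.n ≤ 3 :=
      (le_max_right _ _).trans (core_ne_zero D hxk).le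
    have a3 := dst_close m _ (pos (tr m Φ) q.s xk) q.n (a1.trans_lt (by norm_num)) hj
    rw [pos_tr hj, pos_tr hj] at a3
    have a4 := abs_le_of_pos (s' := q.s + 4) (by omega) (a3.trans (by linarith))
    have a5 := abs_sub_le (Φ j x) (Φ j xk) (p j)
    linarith
  by_cases hr : 7 / 2 < Es q.s (p jρ)
  · refine ⟨q, 0, Or.inl rfl, fun γ hγ => ?_⟩
    simp only [inner_zero_left, add_zero]
    have loc : ∀ x, 3 < eps m (tr m Φ) q.s q.n x →
        ∀ᶠ y in 𝓝 x, Φ j0 y + ⟪γ, gg D Φ (m, q) y⟫ = Φ j0 y + 0 := fun x hx => by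
      filter_upwards [core_locally_zero (D := D) hΦ' m q hx] with y hy
      rw [gg, hy, inner_zero_right]
    refine ⟨lip_of_calm (fun x => ?_), ?_⟩
    · rcases le_or_gt (eps m (tr m Φ) q.s q.n x) 3 with hx | hx
      · exact ((supp1 x hx).add ((hH1 γ hγ).calm x)).mono (by norm_num)
      · exact (hF.calm x).congr_add 0 (loc x hx)
    · have a1 : ∀ᶠ x in 𝓗, 3 < Es q.s (Φ jρ x) :=
        (((continuous_Es q.s).tendsto _).comp (hH jρ)).eventually
          (lt_mem_nhds (lt_trans (by norm_num) hr))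
      filter_upwards [a1, hFH] with x hx1 hx2
      refine hx2.congr_add 0 (loc x (lt_of_lt_of_le ?_ (le_max_left _ _)))
      rcases le_total ‖x m‖ 1 with h | h
      · rwa [hjρ, min_eq_left h] at hx1
      · have a2 := Es_ge_of_one_le (s := q.s) h
        have a3 : (q.s : ℝ) ≤ -4 := by exact_mod_cast hs
        linarith
  · have hr' : Es q.s (p jρ) ≤ 7 / 2 := not_lt.mp hr
    obtain ⟨r1, r2, r3⟩ := Es_lt (hr'.trans_lt (by norm_num))
    set r := p jρ with hrdef
    have r0 : 0 < r := (ww_pos _).trans r1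
    have r4 : r < 1 := r2.trans_le (WW_le_one hs)
    set s' : ℤ := round (sg r) with hs'
    have s1 : |sg r - s'| ≤ 1 / 2 := abs_sub_round _
    have s2 : s' ≤ q.s + 4 := by
      have b1 := (abs_le.mp s1).1
      have b2 := (abs_le.mp (r3 ▸ hr')).2
      have : (s' : ℝ) ≤ q.s + 4 := by linarith
      exact_mod_cast this
    set n' : List ℤ := rnd m (fun j => bet j * p j / WW s') with hn'
    have hrr := rr_pos s'
    set v : ℤ := round (p j0 / rr s') with hv
    have v1 : |p j0 - v * rr s'| ≤ rr s' / 2 := by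
      have b1 : |p j0 / rr s' - v| ≤ 1 / 2 := abs_sub_round _
      have : p j0 - v * rr s' = (p j0 / rr s' - v) * rr s' := by field_simp
      rw [this, abs_mul, abs_of_pos hrr]
      nlinarith
    refine ⟨⟨s', n', .L j0 v⟩, D.e0, Or.inr rfl, fun γ hγ => ?_⟩
    have eK : ∀ x, ⟪D.e0, gg D Φ (m, ⟨s', n', .L j0 v⟩) x⟫ = -clamp (Φ j0 x - v * rr s')
        (min (rr s' * max (2 - eps m (tr m Φ) s' n' x) 0)
          (max (2 * rr s' - |Φ j0 x - v * rr s'|) 0)) := by
      intro x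
      simp only [gg, core, inner_e0, cL]
      rw [tr_of_lt hj0, if_pos ⟨hj0, hF⟩]
    have calmK : ∀ x, Calm (1 / 300) (Φ j0) x →
        Calm (1 / 300) (fun x => ⟪D.e0, gg D Φ (m, ⟨s', n', .L j0 v⟩) x⟫) x := by
      intro x hx
      filter_upwards [hx] with y hy
      rw [eK, eK, neg_sub_neg, abs_sub_comm]
      refine cL_core_le hΦ' m s' n' y x _ _ le_rfl ?_
      rwa [sub_sub_sub_cancel_right]
    have supp2 : ∀ x, eps m (tr m Φ) s' n' x ≤ 3 → Calm (1 / 300) (Φ j0) x := by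
      intro x hx
      refine hS x (fun j hj => ?_)
      have a1 : Dst m (pos (tr m Φ) s' x) n' ≤ 3 := (le_max_right _ _).trans hx
      have a2 : Dst m (fun j => bet j * p j / WW s') n' ≤ 0 + 1 / 2 :=
        dst_rnd m le_rfl (fun j _ => by simp)
      have a3 := dst_close m _ (fun j => bet j * p j / WW s') n' (a1.trans_lt (by norm_num)) hj
      rw [pos_tr hj] at a3
      have a4 := abs_le_of_pos s2 (a3.trans (by linarith))
      have a5 := abs_nonneg (Φ j xk - p j)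
      linarith
    refine ⟨lip_of_calm (fun x => ?_), ?_⟩
    · by_cases hx : eps m (tr m Φ) q.s q.n x ≤ 3 ∨ eps m (tr m Φ) s' n' x ≤ 3
      · have a1 : Calm (1 / 300) (Φ j0) x := hx.elim (supp1 x) (supp2 x)
        exact ((a1.add ((hH1 γ hγ).calm x)).add (calmK x a1)).mono (by norm_num)
      · rw [not_or, not_le, not_le] at hx
        refine (hF.calm x).congr_add 0 ?_
        filter_upwards [core_locally_zero (D := D) hΦ' m q hx.1,
          core_locally_zero (D := D) hΦ' m ⟨s', n', .L j0 v⟩ hx.2] with y hy1 hy2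
        rw [gg, gg, hy1, hy2, inner_zero_right, inner_zero_right, add_zero]
    · have a1 : ∀ᶠ x in 𝓗, Es s' (Φ jρ x) < 1 := by
        refine (((continuous_Es s').tendsto _).comp (hH jρ)).eventually (gt_mem_nhds ?_)
        rw [Es_eq r0 (by linarith)]
        linarith
      have a2 : ∀ᶠ x in 𝓗, Φ jρ x < 1 := (hH jρ).eventually (gt_mem_nhds r4)
      have a3 : ∀ᶠ x in 𝓗, ∀ j ∈ Finset.range m,
          |bet j * Φ j x / WW s' - bet j * p j / WW s'| ≤ 1 / 4 := by
        refine (Finset.range m).eventually_all.mpr (fun j _ => ?_)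
        have b1 : Tendsto (fun x => bet j * Φ j x / WW s') 𝓗 (𝓝 (bet j * p j / WW s')) :=
          ((hH j).const_mul _).div_const _
        filter_upwards [Metric.tendsto_nhds.mp b1 (1 / 4) (by norm_num)] with x hx
        rw [Real.dist_eq] at hx
        exact hx.le
      have a4 : ∀ᶠ x in 𝓗, |Φ j0 x - v * rr s'| < rr s' :=
        ((hH j0).sub_const _).abs.eventually (gt_mem_nhds (by linarith))
      filter_upwards [a1, a2, a3, a4] with x hx1 hx2 hx3 hx4
      have b1 : eps m (tr m Φ) s' n' x < 1 := by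
        refine max_lt ?_ ?_
        · rw [hjρ] at hx1 hx2
          rwa [min_eq_left (by
            by_contra hc
            rw [min_eq_right (not_le.mp hc).le] at hx2
            exact lt_irrefl _ hx2)] at hx1
        · refine (dst_rnd m (η := 1 / 4) (by norm_num) (fun j hj => ?_)).trans_lt (by norm_num)
          rw [pos_tr hj]
          exact hx3 j (Finset.mem_range.mpr hj)
      refine ((hH1 γ hγ).calm x).congr_add (v * rr s') ?_
      have c1 := (continuous_eps hΦ' m s' n').continuousAt.eventually (gt_mem_nhds b1)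
      have c2 := ((hF.continuous.sub continuous_const).abs.continuousAt (x := x)).eventually
        (gt_mem_nhds hx4)
      filter_upwards [c1, c2] with y hy1 hy2
      have hy2' : |Φ j0 y - v * rr s'| < rr s' := hy2
      rw [eK, clamp_eq]
      · ring
      · refine le_min ?_ (le_max_of_le_left (by linarith))
        have : 1 ≤ max (2 - eps m (tr m Φ) s' n' y) 0 := le_max_of_le_left (by linarith)
        nlinarith

/-- Blocks escaping, scales tending to `-∞`. -/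
theorem steps_down (hΦ : Reg Φ) (hρ : ∀ m, ∃ j, ∀ x, Φ j x = min ‖x m‖ 1) (𝒰 : Ultrafilter ℕ)
    (hm : Tendsto (fun k => (ik k).1) 𝒰 atTop) (hs : Tendsto (fun k => (ik k).2.s) 𝒰 atBot)
    (hx : ∀ᶠ k in (𝒰 : Filter ℕ), ∃ x, gg D Φ (ik k) x ≠ 0) : Steps D Φ 𝒰 ik := by
  classical
  have hx' : ∀ k, ∃ x, (∃ x, gg D Φ (ik k) x ≠ 0) → gg D Φ (ik k) x ≠ 0 := fun k => by
    by_cases h : ∃ x, gg D Φ (ik k) x ≠ 0
    · exact ⟨h.choose, fun _ => h.choose_spec⟩
    · exact ⟨0, fun h' => absurd h' h⟩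
  choose xk hxk using hx'
  have hp : ∀ j, ∃ p : ℝ, Tendsto (fun k => Φ j (xk k)) 𝒰 (𝓝 p) := fun j => by
    obtain ⟨b, hb⟩ := (hΦ j).2
    obtain ⟨p, -, hp⟩ := (isCompact_Icc (a := -b) (b := b)).ultrafilter_le_nhds
      (𝒰.map (fun k => Φ j (xk k))) (by
        rw [le_principal_iff, Ultrafilter.mem_coe, Ultrafilter.mem_map]
        exact Filter.univ_mem' (fun k => abs_le.mp (hb _)))
    exact ⟨p, hp⟩
  choose p hp using hp
  set 𝓗 : Filter (Amb E T) := ⨅ j, comap (Φ j) (𝓝 (p j)) with h𝓗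
  have hH : ∀ j, Tendsto (Φ j) 𝓗 (𝓝 (p j)) := fun j => tendsto_iff_comap.mpr (iInf_le _ j)
  set S : ℕ → Set (Amb E T) := fun k => {x | ∀ j < (ik k).1,
    |Φ j x - p j| ≤ |Φ j (xk k) - p j| + 6 * WW ((ik k).2.s + 4) / bet j} with hS
  have hSH : (𝒰 : Filter ℕ).bind (fun k => 𝓟 (S k)) ≤ 𝓗 := by
    refine le_iInf (fun j => tendsto_iff_comap.mp (Metric.tendsto_nhds.mpr (fun η hη => ?_)))
    rw [eventually_bind]
    have a1 : Tendsto (fun k => |Φ j (xk k) - p j| + 6 * WW ((ik k).2.s + 4) / bet j) 𝒰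
        (𝓝 (|p j - p j| + 6 * 0 / bet j)) :=
      ((hp j).sub_const _).abs.add
        (((tendsto_WW.comp (tendsto_atBot_add_const_right _ _ hs)).const_mul _).div_const _)
    simp only [sub_self, abs_zero, mul_zero, zero_div, add_zero] at a1
    filter_upwards [a1.eventually (gt_mem_nhds hη), hm.eventually_gt_atTop j] with k hk1 hk2
    rw [eventually_principal]
    intro x hx
    rw [Real.dist_eq]
    exact (hx j hk2).trans_lt hk1
  refine ⟨1 / 900, fun k => {i | i.1 = (ik k).1},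
    fun F => Lip (1 / 100) F ∧ ∀ᶠ x in 𝓗, Calm (1 / 300) F x, by norm_num, by norm_num,
    fun k => rfl, ?_, ⟨fun x y => by simp, Eventually.of_forall (fun x => ?_)⟩, fun F h => h.1, ?_⟩
  · intro i
    filter_upwards [hm.eventually_gt_atTop i.1] with k hk
    exact hk.ne
  · exact Lip.calm (fun x y => by simp) x
  rintro F ⟨hF, hFH⟩ ⟨j0, rfl⟩
  have a1 := hFH.filter_mono hSH
  rw [eventually_bind] at a1
  filter_upwards [a1, hm.eventually_gt_atTop j0, hs.eventually_le_atBot (-4), hx]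
    with k hk1 hk2 hk3 hk4
  rw [eventually_principal] at hk1
  obtain ⟨jρ, hjρ⟩ := hρ (ik k).1
  obtain ⟨q', u, hu, h⟩ := down_step (D := D) hΦ (ik k).1 (ik k).2 𝓗 p hH jρ hjρ j0 hk2 hF hFH hk3
    (xk k) (hxk k hk4) hk1
  exact ⟨((ik k).1, q'), rfl, u, hu, h⟩

theorem ultra_const_or {α : Type*} (𝒰 : Ultrafilter ℕ) (f : ℕ → α) :
    (∃ a, ∀ᶠ k in (𝒰 : Filter ℕ), f k = a) ∨
      ∀ A : Set α, A.Finite → ∀ᶠ k in (𝒰 : Filter ℕ), f k ∉ A := by
  by_cases h : ∃ a, ∀ᶠ k in (𝒰 : Filter ℕ), f k = a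
  · exact Or.inl h
  · refine Or.inr (fun A hA => ?_)
    have : ∀ᶠ k in (𝒰 : Filter ℕ), ∀ a ∈ A, f k ≠ a :=
      (eventually_all_finite hA).mpr (fun a _ =>
        Ultrafilter.eventually_not.mpr (fun h' => h ⟨a, h'⟩))
    filter_upwards [this] with k hk hk'
    exact hk _ hk' rfl

theorem ultra_nat (𝒰 : Ultrafilter ℕ) (f : ℕ → ℕ) :
    (∃ a, ∀ᶠ k in (𝒰 : Filter ℕ), f k = a) ∨ Tendsto f 𝒰 atTop := by
  refine (ultra_const_or 𝒰 f).imp id (fun h => tendsto_atTop.mpr (fun b => ?_))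
  filter_upwards [h _ (Set.finite_Iio b)] with k hk
  exact not_lt.mp hk

theorem ultra_int (𝒰 : Ultrafilter ℕ) (f : ℕ → ℤ) :
    (∀ᶠ k in (𝒰 : Filter ℕ), ∀ᶠ k' in (𝒰 : Filter ℕ), f k ≤ f k') ∨ Tendsto f 𝒰 atBot := by
  rcases ultra_const_or 𝒰 f with ⟨a, ha⟩ | h
  · left
    filter_upwards [ha] with k hk
    filter_upwards [ha] with k' hk'
    rw [hk, hk']
  · rcases 𝒰.em (fun k => 0 ≤ f k) with h0 | h0
    · left
      refine Eventually.of_forall (fun k => ?_)
      filter_upwards [h0, h _ (Set.finite_Icc 0 (f k))] with k' h1 h2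
      by_contra hc
      exact h2 ⟨h1, (not_le.mp hc).le⟩
    · right
      refine tendsto_atBot.mpr (fun b => ?_)
      filter_upwards [h0, h _ (Set.finite_Icc b 0)] with k' h1 h2
      by_contra hc
      exact h2 ⟨(not_le.mp hc).le, (not_le.mp h1).le⟩

theorem steps_all (hΦ : Reg Φ) (hρ : ∀ m, ∃ j, ∀ x, Φ j x = min ‖x m‖ 1) (𝒰 : Ultrafilter ℕ)
    (hne : ∀ i, ∀ᶠ k in (𝒰 : Filter ℕ), ik k ≠ i) : Steps D Φ 𝒰 ik := by
  rcases 𝒰.em (fun k => ∃ x, gg D Φ (ik k) x ≠ 0) with hx | hx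
  swap
  · refine steps_free hne (fun η hη => ?_)
    filter_upwards [hx] with k hk x y
    push Not at hk
    rw [hk, hk, sub_self, norm_zero]
    positivity
  rcases ultra_nat 𝒰 (fun k => (ik k).1) with ⟨m, hm⟩ | hm
  · refine steps_block hΦ hne m hm (fun b => ?_)
    have f1 := ((Set.finite_Icc (-b) b).biUnion
      (fun s _ => core_finite (hΦ.tr m) D m s)).image (fun q => ((m, q) : Idx))
    have f2 := (eventually_all_finite f1).mpr (fun i _ => hne i)
    filter_upwards [f2, hx, hm] with k h1 h2 h3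
    by_contra hc
    refine h1 (ik k) ⟨(ik k).2, ?_, by rw [← h3]⟩ rfl
    simp only [Set.mem_iUnion]
    refine ⟨(ik k).2.s, abs_le.mp (not_le.mp hc).le, rfl, ?_⟩
    rw [← h3]
    exact h2
  rcases ultra_int 𝒰 (fun k => (ik k).2.s) with hs | hs
  swap
  · exact steps_down hΦ hρ 𝒰 hm hs hx
  rcases ultra_nat 𝒰 (fun k => (ik k).2.t.lev) with ⟨l, hl⟩ | hl
  · exact steps_up hΦ hm l hl hs
  · refine steps_free hne (fun η hη => ?_)
    have a1 : Tendsto (fun k => 2 * lam ((ik k).2.t.lev - 1)) 𝒰 (𝓝 (2 * 0)) :=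
      (tendsto_lam.comp ((tendsto_sub_atTop_nat 1).comp hl)).const_mul _
    rw [mul_zero] at a1
    filter_upwards [a1.eventually (gt_mem_nhds hη), hl.eventually_ge_atTop 1] with k h1 h2
    exact (core_lip_lev (hΦ.tr _) D _ _ ((ik k).2.t.lev - 1) (by omega)).mono h1.le

theorem nc_adm {dv : ℕ → E} (hdv : DenseRange dv) (hdv0 : dv 0 = D.e0) (hΦ : Good D dv Φ) :
    NC (Adm D Φ) := by
  intro v ik c M hc hv hv0
  have hU : (hyperfilter ℕ : Filter ℕ) ≤ atTop := by
    rw [← Nat.cofinite_eq_atTop]; exact hyperfilter_le_cofinite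
  refine chain D hdv hdv0 hΦ (hyperfilter ℕ) hU v ik c M hc hv hv0
    (steps_all hΦ.reg hΦ.rho _ (fun i => ?_))
  have := ((hv0 i).norm.eventually (gt_mem_nhds (by simpa using hc))).filter_mono hU
  filter_upwards [this] with k hk h
  rw [← h] at hk
  exact absurd (hv k) (not_le.mpr hk)

end Crest.Agent.R91
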