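import Crest.Agent.R91.Rec

/-! Row 91: building long admissible functionals one entry (plus one eraser) at a time. -/

set_option autoImplicit false
open Filter Topology BoundedContinuousFunction TopologicalSpace
open scoped RealInnerProductSpace

noncomputable section
namespace Crest.Agent.R91

variable {E T : Type} [NormedAddCommGroup E] [InnerProductSpace ℝ E] [NormedAddCommGroup T]
  [NormedSpace ℝ T]

/-- An invariant on functions that survives the addition of a new small entry at `ik k`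
(together with an optional eraser at a coordinate in `TT k`), for most `k`. -/
def Steps (D : Dat E T) (Φ : ℕ → Amb E T → ℝ) (𝓕 : Filter ℕ) (ik : ℕ → Idx) : Prop :=
  ∃ (c : ℝ) (TT : ℕ → Set Idx) (Inv : (Amb E T → ℝ) → Prop), 0 < c ∧ c ≤ 1 ∧
    (∀ k, ik k ∈ TT k) ∧ (∀ i, ∀ᶠ k in 𝓕, i ∉ TT k) ∧ Inv (fun _ => 0) ∧
    (∀ F, Inv F → Lip (1 / 100) F) ∧
    ∀ F, Inv F → (∃ j, Φ j = F) → ∀ᶠ k in 𝓕, ∃ i' ∈ TT k, ∃ u : E, (u = 0 ∨ u = D.e0) ∧
      ∀ γ : E, ‖γ‖ ≤ c → Inv (fun x => F x + ⟪γ, gg D Φ (ik k) x⟫ + ⟪u, gg D Φ i' x⟫)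

omit [NormedAddCommGroup T] [NormedSpace ℝ T] in
theorem chain_gamma {dv : ℕ → E} (hdv : DenseRange dv) {w : E} {c c0 : ℝ} (hc : 0 < c)
    (hc0 : 0 < c0) (hw : c ≤ ‖w‖) (b : ℝ) :
    ∃ a, ‖dv a‖ ≤ c0 ∧ c * c0 / 4 ≤ |⟪dv a, w⟫ + b| := by
  have hw0 : 0 < ‖w‖ := hc.trans_le hw
  have key : ∀ σ : ℝ, |σ| = 1 → ∃ a, ‖dv a‖ ≤ c0 ∧ |⟪dv a, w⟫ - σ * (c0 / 2 * ‖w‖)| ≤ c0 / 4 * ‖w‖ := by
    intro σ hσ
    obtain ⟨a, ha⟩ := hdv.exists_dist_lt ((σ * (c0 / 2 / ‖w‖)) • w) (ε := c0 / 4) (by positivity)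
    rw [dist_comm, dist_eq_norm] at ha
    have h1 : ‖(σ * (c0 / 2 / ‖w‖)) • w‖ = c0 / 2 := by
      rw [norm_smul, Real.norm_eq_abs, abs_mul, hσ, abs_of_pos (by positivity)]
      field_simp
    refine ⟨a, ?_, ?_⟩
    · have := norm_le_insert' (dv a) ((σ * (c0 / 2 / ‖w‖)) • w)
      linarith
    · have h2 : σ * (c0 / 2 * ‖w‖) = ⟪(σ * (c0 / 2 / ‖w‖)) • w, w⟫ := by
        rw [real_inner_smul_left, real_inner_self_eq_norm_sq]
        field_simp
      rw [h2, ← inner_sub_left]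
      exact (abs_real_inner_le_norm _ _).trans (mul_le_mul_of_nonneg_right ha.le hw0.le)
  have h3 : c * c0 / 4 ≤ c0 / 4 * ‖w‖ := by nlinarith
  rcases le_total 0 b with hb | hb
  · obtain ⟨a, h1, h2⟩ := key 1 abs_one
    refine ⟨a, h1, le_abs.2 (Or.inl ?_)⟩
    have := (abs_le.1 h2).1
    linarith
  · obtain ⟨a, h1, h2⟩ := key (-1) (by simp)
    refine ⟨a, h1, le_abs.2 (Or.inr ?_)⟩
    have := (abs_le.1 h2).2
    linarith

theorem chain (D : Dat E T) {dv : ℕ → E} (hdv : DenseRange dv) (hdv0 : dv 0 = D.e0)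
    {Φ : ℕ → Amb E T → ℝ} (hΦ : Good D dv Φ) (𝓕 : Filter ℕ) [𝓕.NeBot] (h𝓕 : 𝓕 ≤ atTop)
    (v : ℕ → Idx →₀ E) (ik : ℕ → Idx) (c M : ℝ) (hc : 0 < c) (hv : ∀ k, c ≤ ‖v k (ik k)‖)
    (hv0 : ∀ i, Tendsto (fun k => v k i) atTop (𝓝 0)) (hS : Steps D Φ 𝓕 ik) :
    ¬ ∀ f ∈ Adm D Φ, ∀ n : ℕ, f.support.card ≤ 4 ^ n → ∀ S : Finset ℕ,
      ∑ k ∈ S, |pair f (v k)| ≤ M * 2 ^ n := by
  classical
  obtain ⟨c0, TT, Inv, hc0, hc1, hik, hTT, hI0, hIL, hstep⟩ := hS
  have key : ∀ n : ℕ, ∃ f : Idx →₀ E, InD dv f ∧ (∀ i, ‖f i‖ ≤ 2) ∧ Inv (GG D Φ f) ∧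
      f.support.card ≤ 2 * n ∧ ∃ S : Finset ℕ, S.card = n ∧
        ∀ k ∈ S, c * c0 / 8 ≤ |pair f (v k)| := by
    intro n
    induction n with
    | zero =>
      refine ⟨0, InD.zero, fun i => by simp, ?_, by simp, ∅, rfl, by simp⟩
      have : GG D Φ 0 = fun _ => 0 := funext fun x => pair_zero_left _
      rwa [this]
    | succ n ih =>
      obtain ⟨f, hfD, hf2, hfI, hfc, S, hSc, hSl⟩ := ih
      have e1 := hstep _ hfI (hΦ.code f hfD ((hIL _ hfI).mono (by norm_num)))
      have e2 : ∀ᶠ k in 𝓕, k ∉ S := h𝓕 (by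
        rw [← Nat.cofinite_eq_atTop]
        exact S.finite_toSet.compl_mem_cofinite)
      have e3 : ∀ᶠ k in 𝓕, ∀ i ∈ f.support ∪ S.biUnion fun j => (v j).support, i ∉ TT k :=
        (Finset.eventually_all _).2 fun i _ => hTT i
      have e4 : ∀ᶠ k in 𝓕, |pair f (v k)| ≤ c * c0 / 8 := by
        have t1 : Tendsto (fun k => pair f (v k)) atTop (𝓝 (∑ i ∈ f.support, ⟪f i, (0 : E)⟫)) :=
          tendsto_finsetSum _ fun i _ => tendsto_const_nhds.inner (hv0 i)
        simp only [inner_zero_right, Finset.sum_const_zero] at t1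
        have t2 := t1.abs
        rw [abs_zero] at t2
        exact h𝓕 (t2.eventually (ge_mem_nhds (by positivity)))
      obtain ⟨k, ⟨i', hi', u, hu, hγ⟩, hkS, hkT, hk4⟩ := (e1.and (e2.and (e3.and e4))).exists
      obtain ⟨a, ha1, ha2⟩ := chain_gamma hdv hc hc0 (hv k) ⟪u, v k i'⟫
      have hu1 : ‖u‖ ≤ 1 := by
        rcases hu with rfl | rfl
        · simp
        · exact D.he0.le
      have hp : ∀ z : Idx → E, pair (f + Finsupp.single (ik k) (dv a) + Finsupp.single i' u) z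
          = pair f z + ⟪dv a, z (ik k)⟫ + ⟪u, z i'⟫ := fun z => by
        rw [pair_add_left, pair_add_left, pair_single, pair_single]
      refine ⟨f + Finsupp.single (ik k) (dv a) + Finsupp.single i' u, ?_, fun i => ?_, ?_, ?_,
        insert k S, by rw [Finset.card_insert_of_notMem hkS, hSc], fun j hj => ?_⟩
      · rcases hu with rfl | rfl
        · rw [Finsupp.single_zero, add_zero]
          exact hfD.add _ _
        · rw [← hdv0]
          exact (hfD.add _ _).add _ _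
      · by_cases hi : i ∈ f.support
        · have h1 := hkT i (Finset.mem_union_left _ hi)
          have n1 : i ≠ ik k := fun e => h1 (e ▸ hik k)
          have n2 : i ≠ i' := fun e => h1 (e ▸ hi')
          simpa [Finsupp.single_eq_of_ne n1, Finsupp.single_eq_of_ne n2] using hf2 i
        · have b1 : ‖Finsupp.single (ik k) (dv a) i‖ ≤ 1 := by
            rw [Finsupp.single_apply]
            split_ifs
            · exact ha1.trans hc1
            · simp
          have b2 : ‖Finsupp.single i' u i‖ ≤ 1 := by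
            rw [Finsupp.single_apply]
            split_ifs
            · exact hu1
            · simp
          rw [Finsupp.add_apply, Finsupp.add_apply, Finsupp.notMem_support_iff.1 hi, zero_add]
          exact (norm_add_le _ _).trans (by linarith)
      · have : GG D Φ (f + Finsupp.single (ik k) (dv a) + Finsupp.single i' u)
            = fun x => GG D Φ f x + ⟪dv a, gg D Φ (ik k) x⟫ + ⟪u, gg D Φ i' x⟫ :=
          funext fun x => hp _
        rw [this]
        exact hγ _ ha1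
      · have s1 : ∀ (g : Idx →₀ E) (i : Idx) (b : E),
            (g + Finsupp.single i b).support.card ≤ g.support.card + 1 := fun g i b =>
          (Finset.card_le_card Finsupp.support_add).trans ((Finset.card_union_le _ _).trans
            (Nat.add_le_add_left ((Finset.card_le_card Finsupp.support_single_subset).trans
              (Finset.card_singleton i).le) _))
        have s2 := s1 f (ik k) (dv a)
        have s3 := s1 (f + Finsupp.single (ik k) (dv a)) i' u
        omega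
      · rw [hp]
        rcases Finset.mem_insert.1 hj with rfl | hj
        · have := abs_sub (pair f (v j) + ⟪dv a, v j (ik j)⟫ + ⟪u, v j i'⟫) (pair f (v j))
          rw [add_assoc, add_sub_cancel_left, ← add_assoc] at this
          linarith
        · have z : ∀ i ∈ TT k, v j i = 0 := fun i hi => by
            by_contra h
            exact hkT i (Finset.mem_union_right _
              (Finset.mem_biUnion.2 ⟨j, hj, Finsupp.mem_support_iff.2 h⟩)) hi
          rw [z _ (hik k), z _ hi', inner_zero_right, inner_zero_right, add_zero, add_zero]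
          exact hSl j hj
  intro H
  have hcc : 0 < c * c0 / 8 := by positivity
  obtain ⟨N, hN⟩ := pow_unbounded_of_one_lt (M / (c * c0 / 8)) (one_lt_two (α := ℝ))
  obtain ⟨f, -, hf2, hfI, hfc, S, hSc, hSl⟩ := key (2 * 4 ^ N)
  have h1 := H f ⟨hf2, hIL _ hfI⟩ (N + 1) (by rw [pow_succ]; omega) S
  have h2 := Finset.card_nsmul_le_sum S _ _ hSl
  rw [hSc, nsmul_eq_mul] at h2
  push_cast at h2
  rw [div_lt_iff₀ hcc] at hN
  have h3 : (4 : ℝ) ^ N = 2 ^ N * 2 ^ N := by rw [← mul_pow]; norm_num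
  have h4 : (0 : ℝ) < 2 ^ N := by positivity
  rw [h3] at h2
  rw [pow_succ] at h1
  nlinarith [mul_lt_mul_of_pos_left hN h4]

end Crest.Agent.R91
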