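import Mathlib

/-! Row 91, functional-analytic tools: extension of bi-Lipschitz maps from dense sets,
separability, the shift isomorphism, and the criterion excluding `c₀`. -/

set_option autoImplicit false
open Filter Topology ZeroAtInfty TopologicalSpace

noncomputable section
namespace Crest.Agent.R91

/-- A bi-Lipschitz correspondence between dense subsets extends to a bijection. -/
theorem ext_bilip {X Y A : Type*} [NormedAddCommGroup X] [NormedAddCommGroup Y]
    [CompleteSpace X] [CompleteSpace Y] (a : A → X) (b : A → Y) (ha : DenseRange a)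
    (hb : DenseRange b) {c C : ℝ} (hc : 0 < c)
    (h : ∀ p q, c * ‖a p - a q‖ ≤ ‖b p - b q‖ ∧ ‖b p - b q‖ ≤ C * ‖a p - a q‖) :
    ∃ Ψ : X → Y, Function.Bijective Ψ ∧
      ∀ s t, c * ‖s - t‖ ≤ ‖Ψ s - Ψ t‖ ∧ ‖Ψ s - Ψ t‖ ≤ C * ‖s - t‖ := by
  have hs : Dense (Set.range a) := ha
  let f : Set.range a → Y := fun x => b (Classical.choose x.2)
  have hf0 : ∀ x : Set.range a, a (Classical.choose x.2) = x := fun x => Classical.choose_spec x.2
  have hf : LipschitzWith C.toNNReal f := LipschitzWith.of_dist_le' fun x y => by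
    have := (h (Classical.choose x.2) (Classical.choose y.2)).2
    rw [hf0, hf0] at this
    rw [dist_eq_norm, Subtype.dist_eq, dist_eq_norm]
    exact this
  have hfa : ∀ p, hs.extend f (a p) = b p := by
    intro p
    have h1 := hs.extend_eq hf.continuous ⟨a p, p, rfl⟩
    have h2 := (h (Classical.choose (⟨p, rfl⟩ : a p ∈ Set.range a)) p).2
    rw [hf0 ⟨a p, p, rfl⟩, sub_self, norm_zero, mul_zero, norm_le_zero_iff, sub_eq_zero] at h2
    exact h1.trans h2
  have hc' : Continuous (hs.extend f) := (hs.uniformContinuous_extend hf.uniformContinuous).continuous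
  have hb' : ∀ s t, c * ‖s - t‖ ≤ ‖hs.extend f s - hs.extend f t‖ ∧
      ‖hs.extend f s - hs.extend f t‖ ≤ C * ‖s - t‖ := by
    intro s t
    refine ha.induction_on₂ (p := fun s t => c * ‖s - t‖ ≤ ‖hs.extend f s - hs.extend f t‖ ∧
      ‖hs.extend f s - hs.extend f t‖ ≤ C * ‖s - t‖) ?_ (fun p q => ?_) s t
    · refine IsClosed.and (isClosed_le ?_ ?_) (isClosed_le ?_ ?_) <;> fun_prop
    · rw [hfa, hfa]; exact h p q
  have hanti : AntilipschitzWith (c⁻¹).toNNReal (hs.extend f) :=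
    AntilipschitzWith.of_le_mul_dist fun s t => by
      rw [dist_eq_norm, dist_eq_norm, Real.coe_toNNReal _ (inv_nonneg.2 hc.le),
        le_inv_mul_iff₀ hc]
      exact (hb' s t).1
  refine ⟨hs.extend f, ⟨hanti.injective, ?_⟩, hb'⟩
  have hcl := hanti.isClosed_range (hs.uniformContinuous_extend hf.uniformContinuous)
  have hd : Dense (Set.range (hs.extend f)) :=
    Dense.mono (by rintro _ ⟨p, rfl⟩; exact ⟨a p, hfa p⟩) hb
  rw [← Set.range_eq_univ, ← hcl.closure_eq]
  exact hd.closure_eq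

/-- The data needed to absorb one copy of `T` in `E`. -/
structure Dat (E T : Type) [NormedAddCommGroup E] [NormedSpace ℝ E] [NormedAddCommGroup T]
    [NormedSpace ℝ T] where
  U : (E × T) ≃ₗ[ℝ] E
  hU : ∀ a t, ‖U (a, t)‖ ^ 2 = ‖a‖ ^ 2 + ‖t‖ ^ 2
  e0 : E
  he0 : ‖e0‖ = 1

theorem func_hasSum {T : Type} [NormedAddCommGroup T] (a : lp (fun _ : ℕ => T) 2) :
    HasSum (fun n => ‖a n‖ ^ 2) (‖a‖ ^ 2) := by
  have := lp.hasSum_norm (p := 2) (by norm_num) a
  simpa using this

theorem func_mem {T : Type} [NormedAddCommGroup T] {a : ℕ → T} (h : Summable fun n => ‖a n‖ ^ 2) :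
    Memℓp (E := fun _ : ℕ => T) a 2 :=
  memℓp_gen (by simpa using h)

/-- The shift `(a, t) ↦ (t, a 0, a 1, …)`. -/
theorem exists_dat (T : Type) [NormedAddCommGroup T] [InnerProductSpace ℝ T] (t0 : T)
    (ht0 : ‖t0‖ = 1) : Nonempty (Dat (lp (fun _ : ℕ => T) 2) T) := by
  let c : lp (fun _ : ℕ => T) 2 × T → ℕ → T := fun p n => Nat.casesOn n p.2 p.1
  have hc : ∀ p, HasSum (fun n => ‖c p n‖ ^ 2) (‖p.1‖ ^ 2 + ‖p.2‖ ^ 2) := fun p => by
    have := (hasSum_nat_add_iff (f := fun n => ‖c p n‖ ^ 2) 1).1 (func_hasSum p.1)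
    rw [Finset.sum_range_one] at this
    exact this
  let U : (lp (fun _ : ℕ => T) 2 × T) ≃ₗ[ℝ] lp (fun _ : ℕ => T) 2 :=
    { toFun := fun p => ⟨c p, func_mem (hc p).summable⟩
      map_add' := fun p q => by
        ext n
        cases n <;> rfl
      map_smul' := fun r p => by
        ext n
        cases n <;> rfl
      invFun := fun e => (⟨fun n => e (n + 1), func_mem
        ((summable_nat_add_iff (f := fun n => ‖e n‖ ^ 2) 1).2 (func_hasSum e).summable)⟩, e 0)
      left_inv := fun p => rfl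
      right_inv := fun e => by
        ext n
        cases n <;> rfl }
  refine ⟨⟨U, fun a t => (func_hasSum (U (a, t))).unique (hc (a, t)), lp.single 2 0 t0, ?_⟩⟩
  rw [lp.norm_single (by norm_num), ht0]

theorem sep_lp2 (T : Type) [NormedAddCommGroup T] [NormedSpace ℝ T] [SeparableSpace T] :
    SeparableSpace (lp (fun _ : ℕ => T) 2) := by
  rw [← isSeparable_univ_iff]
  have h1 : IsSeparable (⋃ i : ℕ, Set.range fun t : T => (lp.single 2 i t : lp (fun _ : ℕ => T) 2)) :=
    IsSeparable.iUnion fun i => isSeparable_range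
      (lp.isometry_single (E := fun _ : ℕ => T) (p := 2) i).continuous
  refine (h1.span (R := ℝ)).closure.mono fun x _ => ?_
  refine mem_closure_of_tendsto (lp.hasSum_single (by norm_num) x) (Eventually.of_forall fun S => ?_)
  exact Submodule.sum_mem _ fun i _ => Submodule.subset_span (Set.mem_iUnion.2 ⟨i, _, rfl⟩)

/-- A finitely supported sequence as an element of `c₀`. -/
def toC0 {T : Type} [NormedAddCommGroup T] (t : ℕ →₀ T) : C₀(ℕ, T) where
  toFun := t
  continuous_toFun := continuous_of_discreteTopology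
  zero_at_infty' := by
    rw [cocompact_eq_cofinite]
    refine tendsto_const_nhds.congr' ?_
    filter_upwards [t.support.finite_toSet.compl_mem_cofinite] with k hk
    exact (Finsupp.notMem_support_iff.mp hk).symm

@[simp] theorem toC0_apply {T : Type} [NormedAddCommGroup T] (t : ℕ →₀ T) (k : ℕ) :
    toC0 t k = t k := rfl

theorem func_norm_le {T : Type} [NormedAddCommGroup T] (x : C₀(ℕ, T)) {C : ℝ} (hC : 0 ≤ C)
    (h : ∀ k, ‖x k‖ ≤ C) : ‖x‖ ≤ C := by
  rw [← ZeroAtInftyContinuousMap.norm_toBCF_eq_norm]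
  exact (BoundedContinuousFunction.norm_le hC).2 h

theorem toC0_add {T : Type} [NormedAddCommGroup T] (s t : ℕ →₀ T) :
    toC0 (s + t) = toC0 s + toC0 t := by
  ext k; simp

theorem toC0_zero {T : Type} [NormedAddCommGroup T] : toC0 (0 : ℕ →₀ T) = 0 := by
  ext k; simp

theorem dense_toC0 (T : Type) [NormedAddCommGroup T] : DenseRange (toC0 (T := T)) := by
  classical
  intro x
  rw [Metric.mem_closure_iff]
  intro ε hε
  have h1 := x.zero_at_infty'
  rw [cocompact_eq_cofinite, tendsto_zero_iff_norm_tendsto_zero] at h1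
  have h2 := h1.eventually (ge_mem_nhds (half_pos hε))
  rw [eventually_cofinite] at h2
  refine ⟨toC0 (Finsupp.onFinset h2.toFinset (fun k => if k ∈ h2.toFinset then x k else 0)
    fun k hk => by by_contra h; exact hk (if_neg h)), ⟨_, rfl⟩, ?_⟩
  rw [dist_eq_norm]
  refine lt_of_le_of_lt (func_norm_le _ (half_pos hε).le fun k => ?_) (half_lt_self hε)
  simp only [ZeroAtInftyContinuousMap.coe_sub, Pi.sub_apply, toC0_apply, Finsupp.onFinset_apply]
  split_ifs with h
  · simpa using (half_pos hε).le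
  · rw [sub_zero]
    by_contra hcon
    exact h (h2.mem_toFinset.2 hcon)

theorem sep_c0 (T : Type) [NormedAddCommGroup T] [NormedSpace ℝ T] [SeparableSpace T] :
    SeparableSpace C₀(ℕ, T) := by
  classical
  rw [← isSeparable_univ_iff]
  have h0 : ∀ k : ℕ, Continuous fun t : T => toC0 (Finsupp.single k t) := fun k =>
    (LipschitzWith.of_dist_le_mul (K := 1) fun s t => by
      rw [dist_eq_norm, dist_eq_norm, NNReal.coe_one, one_mul]
      refine func_norm_le _ (norm_nonneg _) fun j => ?_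
      simp only [ZeroAtInftyContinuousMap.coe_sub, Pi.sub_apply, toC0_apply, Finsupp.single_apply]
      split_ifs
      · exact le_rfl
      · simp).continuous
  have h1 : IsSeparable (⋃ k : ℕ, Set.range fun t : T => toC0 (Finsupp.single k t)) :=
    IsSeparable.iUnion fun k => isSeparable_range (h0 k)
  refine (h1.span (R := ℝ)).closure.mono fun x _ => closure_mono ?_ (dense_toC0 T x)
  rintro _ ⟨t, rfl⟩
  induction t using Finsupp.induction_linear with
  | zero => rw [toC0_zero]; exact Submodule.zero_mem _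
  | add f g hf hg => rw [toC0_add]; exact Submodule.add_mem _ hf hg
  | single k t => exact Submodule.subset_span (Set.mem_iUnion.2 ⟨k, t, rfl⟩)

theorem c0_apply_le {T : Type} [NormedAddCommGroup T] (x : C₀(ℕ, T)) (k : ℕ) : ‖x k‖ ≤ ‖x‖ := by
  rw [← ZeroAtInftyContinuousMap.norm_toBCF_eq_norm]
  exact x.toBCF.norm_coe_le_norm k

theorem c0_norm_le {T : Type} [NormedAddCommGroup T] (x : C₀(ℕ, T)) {C : ℝ} (hC : 0 ≤ C)
    (h : ∀ k, ‖x k‖ ≤ C) : ‖x‖ ≤ C := by
  exact func_norm_le x hC h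

/-- No seminormalised sequence with an upper `c₀` estimate. -/
def NoC0 (Z : Type*) [NormedAddCommGroup Z] [NormedSpace ℝ Z] : Prop :=
  ∀ (u : ℕ → Z) (a M : ℝ), 0 < a → (∀ k, a ≤ ‖u k‖) →
    ¬ ∀ (S : Finset ℕ) (ε : ℕ → ℝ), (∀ k, |ε k| ≤ 1) → ‖∑ k ∈ S, ε k • u k‖ ≤ M

theorem NoC0.elim {Z : Type*} [NormedAddCommGroup Z] [NormedSpace ℝ Z] (h : NoC0 Z) {T : Type}
    [NormedAddCommGroup T] [NormedSpace ℝ T] (t0 : T) (ht0 : ‖t0‖ = 1) (j : C₀(ℕ, T) →L[ℝ] Z)
    {c : ℝ} (hc : 0 < c) (hj : ∀ x, c * ‖x‖ ≤ ‖j x‖) : False := by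
  classical
  refine h (fun k => j (toC0 (Finsupp.single k t0))) c ‖j‖ hc (fun k => ?_) fun S ε hε => ?_
  · refine le_trans ?_ (hj _)
    have := c0_apply_le (toC0 (Finsupp.single k t0)) k
    simp only [toC0_apply, Finsupp.single_eq_same, ht0] at this
    exact le_mul_of_one_le_right hc.le this
  · simp only [← map_smul, ← map_sum]
    refine (j.le_opNorm _).trans (mul_le_of_le_one_right (norm_nonneg _) ?_)
    refine c0_norm_le _ zero_le_one fun k => ?_
    have e : ∀ S : Finset ℕ, (∑ i ∈ S, ε i • toC0 (Finsupp.single i t0)) k =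
        if k ∈ S then ε k • t0 else 0 := by
      intro S
      induction S using Finset.induction_on with
      | empty => simp
      | insert i S hi ih =>
        rw [Finset.sum_insert hi, ZeroAtInftyContinuousMap.coe_add, Pi.add_apply, ih]
        by_cases hk : k = i
        · subst hk
          simp [hi]
        · simp [hk]
    rw [e]
    split_ifs
    · rw [norm_smul, ht0, mul_one]; exact hε k
    · simp

theorem func_lower {X Y : Type*} [NormedAddCommGroup X] [NormedSpace ℝ X] [NormedAddCommGroup Y]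
    [NormedSpace ℝ Y] (e : X ≃L[ℝ] Y) : ∃ c : ℝ, 0 < c ∧ ∀ x, c * ‖x‖ ≤ ‖e x‖ := by
  refine ⟨(‖(e.symm : Y →L[ℝ] X)‖ + 1)⁻¹, by positivity, fun x => ?_⟩
  rw [inv_mul_le_iff₀ (by positivity)]
  have := (e.symm : Y →L[ℝ] X).le_opNorm (e x)
  simp only [ContinuousLinearEquiv.coe_coe, ContinuousLinearEquiv.symm_apply_apply] at this
  nlinarith [norm_nonneg (e x)]

theorem NoC0.sub {Z : Type*} [NormedAddCommGroup Z] [NormedSpace ℝ Z] (h : NoC0 Z) {T : Type}
    [NormedAddCommGroup T] [NormedSpace ℝ T] (t0 : T) (ht0 : ‖t0‖ = 1) (S : Submodule ℝ Z) :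
    IsEmpty (S ≃L[ℝ] C₀(ℕ, T)) := by
  refine ⟨fun e => ?_⟩
  obtain ⟨c, hc, hj⟩ := func_lower e.symm
  exact h.elim t0 ht0 (S.subtypeL.comp (e.symm : C₀(ℕ, T) →L[ℝ] S)) hc fun x => hj x

theorem NoC0.prod {Z : Type*} [NormedAddCommGroup Z] [NormedSpace ℝ Z] (h : NoC0 Z) {T : Type}
    [NormedAddCommGroup T] [NormedSpace ℝ T] (t0 : T) (ht0 : ‖t0‖ = 1) :
    IsEmpty ((Z × C₀(ℕ, T)) ≃L[ℝ] Z) := by
  refine ⟨fun e => ?_⟩
  obtain ⟨c, hc, hj⟩ := func_lower e
  refine h.elim t0 ht0 ((e : (Z × C₀(ℕ, T)) →L[ℝ] Z).comp (ContinuousLinearMap.inr ℝ _ _)) hc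
    fun x => ?_
  have := hj (0, x)
  simpa using this

end Crest.Agent.R91
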