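import Crest.Agent.R91.Tools
import Crest.Agent.R91.Func

/-! Row 91: one block of the nonlinear insertion map. -/

set_option autoImplicit false
set_option linter.unusedSectionVars false
open Filter Topology BoundedContinuousFunction

noncomputable section
namespace Crest.Agent.R91

inductive Tag
  | ins
  | C (j l : ℕ)
  | L (j : ℕ) (v : ℤ)
  deriving DecidableEq, Countable

/-- Coordinates of a block: scale, lattice point, kind. -/
structure Q where
  s : ℤ
  n : List ℤ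
  t : Tag
  deriving DecidableEq, Countable

instance : TopologicalSpace Q := ⊥
instance : DiscreteTopology Q := ⟨rfl⟩

/-- All coordinates. -/
abbrev Idx := ℕ × Q

abbrev Blk (E T : Type) [NormedAddCommGroup E] [NormedAddCommGroup T] := (Q →ᵇ E) × T

/-- The ambient sup-normed space. -/
abbrev Amb (E T : Type) [NormedAddCommGroup E] [NormedAddCommGroup T] := ℕ →ᵇ Blk E T

def sg (ρ : ℝ) : ℝ := Real.log ρ / 1000
def ww (s : ℤ) : ℝ := Real.exp (1000 * ((s : ℝ) - 4))
def WW (s : ℤ) : ℝ := Real.exp (1000 * ((s : ℝ) + 4))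
def bet (j : ℕ) : ℝ := (1 / 1000) / 2 ^ (j + 1)
def lam (l : ℕ) : ℝ := (1 / 100) / 2 ^ l
def DD (l : ℕ) : ℝ := 3 - 1 / 2 ^ l
def del (l : ℕ) : ℝ := 1 / 2 ^ (l + 1)
def rr (s : ℤ) : ℝ := ww s / 300
def Es (s : ℤ) (ρ : ℝ) : ℝ := |sg (max ρ (ww s)) - s|
def psi (e : ℝ) : ℝ := max 0 (min 1 (2 - e))

/-- The level of a kind of coordinate. -/
def Tag.lev : Tag → ℕ
  | .ins => 0
  | .C _ l => l + 1
  | .L _ _ => 0

theorem ww_pos (s : ℤ) : 0 < ww s := Real.exp_pos _
theorem WW_pos (s : ℤ) : 0 < WW s := Real.exp_pos _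
theorem rr_pos (s : ℤ) : 0 < rr s := by unfold rr; have := ww_pos s; positivity
theorem bet_pos (j : ℕ) : 0 < bet j := by unfold bet; positivity
theorem lam_pos (l : ℕ) : 0 < lam l := by unfold lam; positivity
theorem del_pos (l : ℕ) : 0 < del l := by unfold del; positivity

theorem ww_le_WW (s : ℤ) : ww s ≤ WW s := by
  unfold ww WW; exact Real.exp_le_exp.mpr (by linarith)

theorem WW_eq (s : ℤ) : WW s = Real.exp 8000 * ww s := by
  unfold ww WW; rw [← Real.exp_add]; congr 1; ring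

theorem ww_mono {s s' : ℤ} (h : s ≤ s') : ww s ≤ ww s' := by
  have : (s : ℝ) ≤ s' := by exact_mod_cast h
  unfold ww; exact Real.exp_le_exp.mpr (by linarith)

theorem WW_mono {s s' : ℤ} (h : s ≤ s') : WW s ≤ WW s' := by
  have : (s : ℝ) ≤ s' := by exact_mod_cast h
  unfold WW; exact Real.exp_le_exp.mpr (by linarith)

theorem WW_le_ww {s s' : ℤ} (h : s + 8 ≤ s') : WW s ≤ ww s' := by
  have : (s : ℝ) + 8 ≤ s' := by exact_mod_cast h
  unfold WW ww; exact Real.exp_le_exp.mpr (by linarith)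

theorem WW_le_one {s : ℤ} (h : s ≤ -4) : WW s ≤ 1 := by
  have : (s : ℝ) ≤ -4 := by exact_mod_cast h
  unfold WW; exact Real.exp_le_one_iff.mpr (by linarith)

theorem tendsto_WW : Tendsto WW atBot (𝓝 0) := by
  unfold WW
  refine Real.tendsto_exp_atBot.comp ?_
  refine Tendsto.const_mul_atBot (by norm_num) ?_
  exact tendsto_atBot_add_const_right _ _ (tendsto_intCast_atBot_iff.mpr tendsto_id)

theorem lam_le (l : ℕ) : lam l ≤ 1 / 100 := by
  unfold lam
  exact div_le_self (by norm_num) (one_le_pow₀ (by norm_num))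

theorem tendsto_lam : Tendsto lam atTop (𝓝 0) := by
  unfold lam
  exact tendsto_const_nhds.div_atTop (tendsto_pow_atTop_atTop_of_one_lt (by norm_num))

theorem del_le (l : ℕ) : del l ≤ 1 / 2 := by
  unfold del
  rw [pow_succ]
  have : (1 : ℝ) ≤ 2 ^ l := one_le_pow₀ (by norm_num)
  rw [div_le_div_iff₀ (by positivity) (by norm_num)]
  linarith

theorem DD_succ (l : ℕ) : DD (l + 1) = DD l + del l := by
  unfold DD del
  field_simp
  ring

theorem DD_lt (l : ℕ) : DD l < 3 := by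
  unfold DD
  have : (0 : ℝ) < 1 / 2 ^ l := by positivity
  linarith

theorem two_le_DD (l : ℕ) : 2 ≤ DD l := by
  unfold DD
  have : (1 : ℝ) / 2 ^ l ≤ 1 := div_le_self (by norm_num) (one_le_pow₀ (by norm_num))
  linarith

theorem sum_bet_le (m : ℕ) : ∑ j ∈ Finset.range m, bet j ≤ 1 / 1000 := by
  have : ∀ m : ℕ, ∑ j ∈ Finset.range m, bet j = 1 / 1000 - (1 / 1000) / 2 ^ m := by
    intro m
    induction m with
    | zero => simp
    | succ m ih => rw [Finset.sum_range_succ, ih]; unfold bet; field_simp; ring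
  rw [this]
  have : (0 : ℝ) < (1 / 1000) / 2 ^ m := by positivity
  linarith

theorem bet_le (j : ℕ) : bet j ≤ 1 / 1000 := by
  unfold bet
  exact div_le_self (by norm_num) (one_le_pow₀ (by norm_num))

theorem Es_nonneg (s : ℤ) (ρ : ℝ) : 0 ≤ Es s ρ := abs_nonneg _

theorem sg_ww (s : ℤ) : sg (ww s) = s - 4 := by
  unfold sg ww; rw [Real.log_exp]; ring

theorem lt_WW_of_sg {s : ℤ} {ρ : ℝ} (hρ : 0 < ρ) (h : sg ρ < s + 4) : ρ < WW s := by
  unfold sg at h; unfold WW
  rw [← Real.log_lt_iff_lt_exp hρ]; linarith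

theorem le_WW_of_sg {s : ℤ} {ρ : ℝ} (hρ : 0 < ρ) (h : sg ρ ≤ s + 4) : ρ ≤ WW s := by
  unfold sg at h; unfold WW
  rw [← Real.log_le_iff_le_exp hρ]; linarith

theorem ww_le_of_sg {s : ℤ} {ρ : ℝ} (hρ : 0 < ρ) (h : (s : ℝ) - 4 ≤ sg ρ) : ww s ≤ ρ := by
  unfold sg at h; unfold ww
  rw [← Real.le_log_iff_exp_le hρ]; linarith

theorem Es_lt {s : ℤ} {ρ : ℝ} (h : Es s ρ < 4) : ww s < ρ ∧ ρ < WW s ∧ Es s ρ = |sg ρ - s| := by
  unfold Es at *
  have h1 : ww s < ρ := by
    by_contra hc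
    rw [max_eq_right (not_lt.mp hc), sg_ww] at h
    norm_num at h
  rw [max_eq_left h1.le] at *
  refine ⟨h1, lt_WW_of_sg ((ww_pos s).trans h1) ?_, rfl⟩
  have := (abs_lt.mp h).2
  linarith

theorem Es_eq {s : ℤ} {ρ : ℝ} (hρ : 0 < ρ) (h : |sg ρ - s| ≤ 4) : Es s ρ = |sg ρ - s| := by
  unfold Es
  rw [max_eq_left (ww_le_of_sg hρ (by have := (abs_le.mp h).1; linarith))]

theorem Es_ge_of_one_le {s : ℤ} {ρ : ℝ} (hρ : 1 ≤ ρ) : -(s : ℝ) ≤ Es s ρ := by
  unfold Es sg
  have : 0 ≤ Real.log (max ρ (ww s)) := Real.log_nonneg (hρ.trans (le_max_left _ _))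
  have h2 := le_abs_self (Real.log (max ρ (ww s)) / 1000 - s)
  linarith

theorem sg_lip {ρ ρ' t : ℝ} (ht : 0 < t) (h : t ≤ ρ) (h' : t ≤ ρ') :
    t * |sg ρ - sg ρ'| ≤ |ρ - ρ'| / 1000 := by
  have key : ∀ a b : ℝ, t ≤ a → t ≤ b → t * (Real.log a - Real.log b) ≤ |a - b| := by
    intro a b ha hb
    have ha0 : 0 < a := ht.trans_le ha
    have hb0 : 0 < b := ht.trans_le hb
    rw [← Real.log_div ha0.ne' hb0.ne']
    have h1 := Real.log_le_sub_one_of_pos (div_pos ha0 hb0)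
    have h2 : a / b - 1 ≤ |a - b| / b := by
      rw [div_sub_one hb0.ne']
      exact div_le_div_of_nonneg_right (le_abs_self _) hb0.le
    have h3 : t * (|a - b| / b) ≤ |a - b| := by
      rw [← mul_div_assoc, div_le_iff₀ hb0, mul_comm]
      exact mul_le_mul_of_nonneg_left hb (abs_nonneg _)
    nlinarith
  have h1 := key ρ ρ' h h'
  have h2 := key ρ' ρ h' h
  rw [abs_sub_comm] at h2
  unfold sg
  rcases abs_cases (Real.log ρ / 1000 - Real.log ρ' / 1000) with ⟨e, _⟩ | ⟨e, _⟩ <;> rw [e] <;>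
    linarith

theorem Es_lip {s : ℤ} {ρ ρ' t : ℝ} (ht : 0 ≤ t) (h : t ≤ max (min ρ ρ') (ww s)) :
    t * |Es s ρ - Es s ρ'| ≤ |ρ - ρ'| / 1000 := by
  rcases ht.eq_or_lt with rfl | ht
  · simp only [zero_mul]; positivity
  have h1 : t ≤ max ρ (ww s) := h.trans (max_le_max_right _ (min_le_left _ _))
  have h2 : t ≤ max ρ' (ww s) := h.trans (max_le_max_right _ (min_le_right _ _))
  have h3 := sg_lip ht h1 h2
  have h4 : |Es s ρ - Es s ρ'| ≤ |sg (max ρ (ww s)) - sg (max ρ' (ww s))| := by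
    unfold Es
    refine (abs_abs_sub_abs_le_abs_sub _ _).trans (le_of_eq ?_)
    congr 1; ring
  have h5 := abs_max_sub_max_le_abs ρ ρ' (ww s)
  have h6 := mul_le_mul_of_nonneg_left h4 ht.le
  linarith

theorem continuous_Es (s : ℤ) : Continuous (Es s) := by
  unfold Es sg
  refine ((Continuous.log (continuous_id.max continuous_const) ?_).div_const _ |>.sub
    continuous_const).abs
  intro x
  exact ((ww_pos s).trans_le (le_max_right _ _)).ne'

theorem psi_nonneg (e : ℝ) : 0 ≤ psi e := le_max_left _ _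

theorem psi_le_one (e : ℝ) : psi e ≤ 1 := max_le zero_le_one (min_le_left _ _)

theorem psi_eq_one {e : ℝ} (h : e ≤ 1) : psi e = 1 := by
  unfold psi
  rw [min_eq_left (by linarith), max_eq_right zero_le_one]

theorem psi_eq_zero {e : ℝ} (h : 2 ≤ e) : psi e = 0 := by
  unfold psi
  exact max_eq_left ((min_le_right _ _).trans (by linarith))

theorem psi_lip (e e' : ℝ) : |psi e - psi e'| ≤ |e - e'| := by
  unfold psi
  rw [max_comm 0, max_comm 0]
  refine (abs_max_sub_max_le_abs _ _ _).trans ?_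
  refine (abs_min_sub_min_le_max _ _ _ _).trans ?_
  simp only [sub_self, abs_zero]
  refine max_le (abs_nonneg _) (le_of_eq ?_)
  rw [abs_sub_comm]; congr 1; ring

variable {E T : Type} [NormedAddCommGroup E] [NormedSpace ℝ E] [NormedAddCommGroup T]
  [NormedSpace ℝ T]

theorem Dat.norm_le (D : Dat E T) {a : E} {t : T} {M : ℝ} (ha : ‖a‖ ≤ M) (ht : ‖t‖ ≤ M) :
    ‖D.U (a, t)‖ ≤ 3 / 2 * M := by
  have h := D.hU a t
  have h0 : 0 ≤ M := (norm_nonneg _).trans ha
  have h1 := norm_nonneg a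
  have h2 := norm_nonneg t
  refine abs_le_of_sq_le_sq' ?_ (by positivity) |>.2
  nlinarith

theorem Dat.fst_le (D : Dat E T) (p : E × T) : ‖p.1‖ ≤ ‖D.U p‖ := by
  have h := D.hU p.1 p.2
  refine abs_le_of_sq_le_sq' ?_ (norm_nonneg _) |>.2
  have : (p.1, p.2) = p := rfl
  rw [this] at h
  nlinarith [sq_nonneg ‖p.2‖]

theorem Dat.snd_le (D : Dat E T) (p : E × T) : ‖p.2‖ ≤ ‖D.U p‖ := by
  have h := D.hU p.1 p.2
  refine abs_le_of_sq_le_sq' ?_ (norm_nonneg _) |>.2
  have : (p.1, p.2) = p := rfl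
  rw [this] at h
  nlinarith [sq_nonneg ‖p.1‖]

theorem amb_fst_le (x : Amb E T) (m : ℕ) (q : Q) : ‖(x m).1 q‖ ≤ ‖x m‖ :=
  ((x m).1.norm_coe_le_norm q).trans (norm_fst_le _)

theorem amb_fst_sub_le (x x' : Amb E T) (m : ℕ) (q : Q) :
    ‖(x m).1 q - (x' m).1 q‖ ≤ ‖x - x'‖ :=
  (amb_fst_le (x - x') m q).trans ((x - x').norm_coe_le_norm m)

theorem amb_snd_sub_le (x x' : Amb E T) (m : ℕ) : ‖(x m).2 - (x' m).2‖ ≤ ‖x - x'‖ :=
  (norm_snd_le ((x - x') m)).trans ((x - x').norm_coe_le_norm m)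

theorem amb_rho_sub_le (x x' : Amb E T) (m : ℕ) : |‖x m‖ - ‖x' m‖| ≤ ‖x - x'‖ :=
  (abs_norm_sub_norm_le _ _).trans ((x - x').norm_coe_le_norm m)

/-- The variables are bounded and `1`-Lipschitz. -/
def Reg (Φ : ℕ → Amb E T → ℝ) : Prop := ∀ j, Lip 1 (Φ j) ∧ ∃ b, ∀ x, |Φ j x| ≤ b

def pos (Φ : ℕ → Amb E T → ℝ) (s : ℤ) (x : Amb E T) (j : ℕ) : ℝ := bet j * Φ j x / WW s

/-- Normalised distance of `x` to the cell `(s, n)` of block `m`. -/
def eps (m : ℕ) (Φ : ℕ → Amb E T → ℝ) (s : ℤ) (n : List ℤ) (x : Amb E T) : ℝ :=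
  max (Es s ‖x m‖) (Dst m (pos Φ s x) n)

/-- The `x`-dependent average of the insertion coordinates of block `m`. -/
def Av (m : ℕ) (Φ : ℕ → Amb E T → ℝ) (x : Amb E T) (a : Q → E) : E :=
  lerp (sg ‖x m‖) (fun s => Avg m (pos Φ s x) (fun n => a ⟨s, n, .ins⟩))

def VV (D : Dat E T) (m : ℕ) (Φ : ℕ → Amb E T → ℝ) (x : Amb E T) : E :=
  D.U (Av m Φ x (x m).1, (x m).2) - Av m Φ x (x m).1

open Classical in
/-- Coefficient of an erasing coordinate of the first kind. -/
def cC (m : ℕ) (Φ : ℕ → Amb E T → ℝ) (s : ℤ) (n : List ℤ) (j l : ℕ) (x : Amb E T) : ℝ :=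
  if j < m ∧ l < m ∧ Lip (lam l) (Φ j) ∧ ∀ y, |Φ j y| ≤ lam l * del l * ww s then
    clamp (Φ j x) (lam l * ww s * max (eps m Φ s n x - DD l) 0) - Φ j x
  else 0

open Classical in
/-- Coefficient of an erasing coordinate of the second kind. -/
def cL (m : ℕ) (Φ : ℕ → Amb E T → ℝ) (s : ℤ) (n : List ℤ) (j : ℕ) (v : ℤ) (x : Amb E T) : ℝ :=
  if j < m ∧ Lip (1 / 100) (Φ j) then
    -clamp (Φ j x - v * rr s)
      (min (rr s * max (2 - eps m Φ s n x) 0) (max (2 * rr s - |Φ j x - v * rr s|) 0))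
  else 0

/-- The perturbation of the coordinate `q` of block `m`. -/
def core (D : Dat E T) (m : ℕ) (Φ : ℕ → Amb E T → ℝ) : Q → Amb E T → E
  | ⟨s, n, .ins⟩, x => psi (eps m Φ s n x) • VV D m Φ x
  | ⟨s, n, .C j l⟩, x => cC m Φ s n j l x • D.e0
  | ⟨s, n, .L j v⟩, x => cL m Φ s n j v x • D.e0

variable {Φ : ℕ → Amb E T → ℝ}

theorem eps_lip (hΦ : Reg Φ) (m : ℕ) (s : ℤ) (n : List ℤ) (x x' : Amb E T) {t : ℝ} (ht : 0 ≤ t)
    (h1 : t ≤ max (min ‖x m‖ ‖x' m‖) (ww s)) (h2 : t ≤ WW s) :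
    t * |eps m Φ s n x - eps m Φ s n x'| ≤ ‖x - x'‖ / 1000 := by
  have hW := WW_pos s
  have hd := norm_nonneg (x - x')
  have a1 := Es_lip (s := s) ht h1
  have a2 := amb_rho_sub_le x x' m
  have a3 : |Dst m (pos Φ s x) n - Dst m (pos Φ s x') n| ≤ ‖x - x'‖ / 1000 / WW s := by
    refine dst_lip m (by positivity) (fun j _ => ?_) n
    unfold pos
    rw [← sub_div, ← mul_sub, abs_div, abs_mul, abs_of_pos hW, abs_of_pos (bet_pos j)]
    refine div_le_div_of_nonneg_right ?_ hW.le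
    have b1 := (hΦ j).1 x x'
    rw [Real.norm_eq_abs, one_mul] at b1
    have b2 := bet_le j
    have b3 := bet_pos j
    nlinarith [abs_nonneg (Φ j x - Φ j x')]
  have a4 : t * |Dst m (pos Φ s x) n - Dst m (pos Φ s x') n| ≤ ‖x - x'‖ / 1000 := by
    refine (mul_le_mul h2 a3 (abs_nonneg _) hW.le).trans (le_of_eq ?_)
    field_simp
  unfold eps
  refine (mul_le_mul_of_nonneg_left (abs_max_sub_max_le_max _ _ _ _) ht).trans ?_
  rw [mul_max_of_nonneg _ _ ht]
  exact max_le (by linarith) a4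

theorem eps_lip_ww (hΦ : Reg Φ) (m : ℕ) (s : ℤ) (n : List ℤ) (x x' : Amb E T) :
    ww s * |eps m Φ s n x - eps m Φ s n x'| ≤ ‖x - x'‖ / 1000 := by
  exact eps_lip hΦ m s n x x' (ww_pos s).le (le_max_right _ _) (ww_le_WW s)

theorem continuous_eps (hΦ : Reg Φ) (m : ℕ) (s : ℤ) (n : List ℤ) : Continuous (eps m Φ s n) := by
  have hw := ww_pos s
  refine Lip.continuous (L := 1 / 1000 / ww s) (fun x x' => ?_)
  have := eps_lip_ww hΦ m s n x x'
  rw [Real.norm_eq_abs, div_mul_eq_mul_div, le_div_iff₀ hw]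
  linarith

theorem eps_lt {m : ℕ} {s : ℤ} {n : List ℤ} {x : Amb E T} (h : eps m Φ s n x < 4) :
    ww s < ‖x m‖ ∧ ‖x m‖ < WW s := by
  have := Es_lt ((le_max_left _ _).trans_lt h)
  exact ⟨this.1, this.2.1⟩

theorem psi_min_le (hΦ : Reg Φ) (m : ℕ) (s : ℤ) (n : List ℤ) (x x' : Amb E T) :
    min ‖x m‖ ‖x' m‖ * |psi (eps m Φ s n x) - psi (eps m Φ s n x')| ≤ ‖x - x'‖ / 1000 := by
  have h0 : 0 ≤ min ‖x m‖ ‖x' m‖ := le_min (norm_nonneg _) (norm_nonneg _)
  by_cases h : 2 ≤ eps m Φ s n x ∧ 2 ≤ eps m Φ s n x'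
  · rw [psi_eq_zero h.1, psi_eq_zero h.2]
    simp only [sub_self, abs_zero, mul_zero]; positivity
  · have h1 : min ‖x m‖ ‖x' m‖ ≤ WW s := by
      rcases not_and_or.mp h with h | h
      · exact (min_le_left _ _).trans (eps_lt (Φ := Φ) (n := n) (by linarith)).2.le
      · exact (min_le_right _ _).trans (eps_lt (Φ := Φ) (n := n) (by linarith)).2.le
    exact (mul_le_mul_of_nonneg_left (psi_lip _ _) h0).trans
      (eps_lip hΦ m s n x x' h0 (le_max_left _ _) h1)

theorem psi_smul_sub_le (hΦ : Reg Φ) (m : ℕ) (s : ℤ) (n : List ℤ) (x x' : Amb E T) {V V' : E}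
    {C : ℝ} (hC : 0 ≤ C) (hV : ‖V‖ ≤ C * ‖x m‖) (hV' : ‖V'‖ ≤ C * ‖x' m‖) :
    ‖psi (eps m Φ s n x) • V - psi (eps m Φ s n x') • V'‖ ≤ ‖V - V'‖ + C * ‖x - x'‖ / 1000 := by
  have key := psi_min_le hΦ m s n x x'
  set p := psi (eps m Φ s n x) with hp
  set p' := psi (eps m Φ s n x') with hp'
  have p0 : 0 ≤ p := psi_nonneg _
  have p1 : p ≤ 1 := psi_le_one _
  have p0' : 0 ≤ p' := psi_nonneg _
  have p1' : p' ≤ 1 := psi_le_one _
  have hn := norm_nonneg (V - V')
  have ha := abs_nonneg (p - p')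
  rcases le_total ‖x m‖ ‖x' m‖ with h | h
  · rw [min_eq_left h] at key
    have e : p • V - p' • V' = p' • (V - V') + (p - p') • V := by
      simp only [smul_sub, sub_smul]; abel
    rw [e]
    refine (norm_add_le _ _).trans ?_
    rw [norm_smul, norm_smul, Real.norm_eq_abs, Real.norm_eq_abs, abs_of_nonneg p0']
    have := mul_le_mul_of_nonneg_left hV ha
    have := mul_le_mul_of_nonneg_left key hC
    nlinarith
  · rw [min_eq_right h] at key
    have e : p • V - p' • V' = p • (V - V') + (p - p') • V' := by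
      simp only [smul_sub, sub_smul]; abel
    rw [e]
    refine (norm_add_le _ _).trans ?_
    rw [norm_smul, norm_smul, Real.norm_eq_abs, Real.norm_eq_abs, abs_of_nonneg p0]
    have := mul_le_mul_of_nonneg_left hV' ha
    have := mul_le_mul_of_nonneg_left key hC
    nlinarith

theorem av_norm_le (m : ℕ) (x : Amb E T) {a : Q → E} {M : ℝ} (h : ∀ q, ‖a q‖ ≤ M) :
    ‖Av m Φ x a‖ ≤ M := by
  exact lerp_norm_le (fun s => avg_norm_le _ _ (fun n => h _))

theorem av_sub_le (m : ℕ) (x : Amb E T) {a b : Q → E} {M : ℝ} (h : ∀ q, ‖a q - b q‖ ≤ M) :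
    ‖Av m Φ x a - Av m Φ x b‖ ≤ M := by
  exact lerp_sub_le (fun s _ => avg_sub_le _ _ (fun n => h _))

theorem av_eq_add (m : ℕ) (x : Amb E T) (hx : 0 < ‖x m‖) {a b : Q → E} {c : E}
    (h : ∀ s n, eps m Φ s n x ≤ 1 → a ⟨s, n, .ins⟩ = b ⟨s, n, .ins⟩ + c) :
    Av m Φ x a = Av m Φ x b + c := by
  refine lerp_eq_add (fun s hs => avg_eq_add _ _ (fun n hn => h s n ?_))
  refine max_le ?_ hn
  rw [Es_eq hx (by linarith)]
  exact hs

theorem av_move (hΦ : Reg Φ) (m : ℕ) (x x' : Amb E T) {a : Q → E} {C : ℝ} (hC : 0 ≤ C)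
    (h : ∀ q, ‖a q‖ ≤ C * min ‖x m‖ ‖x' m‖) :
    ‖Av m Φ x a - Av m Φ x' a‖ ≤ 4 * C * ‖x - x'‖ / 1000 := by
  have hd := norm_nonneg (x - x')
  have h0 : 0 ≤ min ‖x m‖ ‖x' m‖ := le_min (norm_nonneg _) (norm_nonneg _)
  rcases h0.eq_or_lt with e | hpos
  · rw [← e, mul_zero] at h
    have a1 := av_norm_le (Φ := Φ) m x h
    have a2 := av_norm_le (Φ := Φ) m x' h
    have a3 := norm_sub_le (Av m Φ x a) (Av m Φ x' a)
    have : 0 ≤ 4 * C * ‖x - x'‖ / 1000 := by positivity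
    linarith
  set μ := min ‖x m‖ ‖x' m‖ with hμ
  have hx : 0 < ‖x m‖ := hpos.trans_le (min_le_left _ _)
  have b1 : ‖lerp (sg ‖x m‖) (fun s => Avg m (pos Φ s x) (fun n => a ⟨s, n, .ins⟩)) -
      lerp (sg ‖x m‖) (fun s => Avg m (pos Φ s x') (fun n => a ⟨s, n, .ins⟩))‖ ≤
      2 * C * ‖x - x'‖ / 1000 := by
    refine lerp_sub_le (fun s hs => ?_)
    refine (avg_lip m _ _ (fun n => h _)).trans ?_
    have hW := WW_pos s
    have c1 : μ ≤ WW s :=
      (min_le_left _ _).trans (le_WW_of_sg hx (by have := (abs_le.mp hs).2; linarith))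
    have c2 : ∑ j ∈ Finset.range m, |pos Φ s x j - pos Φ s x' j| ≤ ‖x - x'‖ / 1000 / WW s := by
      have : ∀ j ∈ Finset.range m, |pos Φ s x j - pos Φ s x' j| ≤ bet j * (‖x - x'‖ / WW s) := by
        intro j _
        unfold pos
        rw [← sub_div, ← mul_sub, abs_div, abs_mul, abs_of_pos hW, abs_of_pos (bet_pos j),
          mul_div_assoc]
        refine mul_le_mul_of_nonneg_left (div_le_div_of_nonneg_right ?_ hW.le) (bet_pos j).le
        have b1 := (hΦ j).1 x x'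
        rwa [Real.norm_eq_abs, one_mul] at b1
      refine (Finset.sum_le_sum this).trans ?_
      rw [← Finset.sum_mul]
      refine (mul_le_mul_of_nonneg_right (sum_bet_le m) (by positivity)).trans (le_of_eq ?_)
      ring
    calc 2 * (C * μ) * ∑ j ∈ Finset.range m, |pos Φ s x j - pos Φ s x' j|
        ≤ 2 * (C * WW s) * (‖x - x'‖ / 1000 / WW s) := by
          gcongr
      _ = 2 * C * ‖x - x'‖ / 1000 := by field_simp
  have b2 : ‖lerp (sg ‖x m‖) (fun s => Avg m (pos Φ s x') (fun n => a ⟨s, n, .ins⟩)) -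
      lerp (sg ‖x' m‖) (fun s => Avg m (pos Φ s x') (fun n => a ⟨s, n, .ins⟩))‖ ≤
      2 * C * ‖x - x'‖ / 1000 := by
    refine (lerp_lip (M := C * μ) (fun s => avg_norm_le _ _ (fun n => h _)) _ _).trans ?_
    have c1 := sg_lip hpos (min_le_left _ _) (min_le_right _ _)
    have c2 := amb_rho_sub_le x x' m
    have c3 : μ * |sg ‖x m‖ - sg ‖x' m‖| ≤ ‖x - x'‖ / 1000 := by linarith
    have := mul_le_mul_of_nonneg_left c3 hC
    nlinarith
  unfold Av
  refine (norm_sub_le_norm_sub_add_norm_sub _ _ _).trans ((add_le_add b1 b2).trans (le_of_eq ?_))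
  ring

/-- Moving both the point and the family. -/
theorem av_move2 (hΦ : Reg Φ) (m : ℕ) (x x' : Amb E T) {a a' : Q → E} {C M : ℝ} (hC : 0 ≤ C)
    (h : ∀ q, ‖a q‖ ≤ C * ‖x m‖) (h' : ∀ q, ‖a' q‖ ≤ C * ‖x' m‖) (hM : ∀ q, ‖a q - a' q‖ ≤ M) :
    ‖Av m Φ x a - Av m Φ x' a'‖ ≤ M + 4 * C * ‖x - x'‖ / 1000 := by
  rcases le_total ‖x m‖ ‖x' m‖ with h1 | h1
  · have a1 := av_move hΦ m x x' (a := a) hC (by rwa [min_eq_left h1])
    have a2 := av_sub_le (Φ := Φ) m x' hM
    have := norm_sub_le_norm_sub_add_norm_sub (Av m Φ x a) (Av m Φ x' a) (Av m Φ x' a')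
    linarith
  · have a1 := av_move hΦ m x x' (a := a') hC (by rwa [min_eq_right h1])
    have a2 := av_sub_le (Φ := Φ) m x hM
    have := norm_sub_le_norm_sub_add_norm_sub (Av m Φ x a) (Av m Φ x a') (Av m Φ x' a')
    linarith

theorem VV_norm_le (D : Dat E T) (m : ℕ) (x : Amb E T) : ‖VV D m Φ x‖ ≤ 5 / 2 * ‖x m‖ := by
  have a1 : ‖Av m Φ x (x m).1‖ ≤ ‖x m‖ := av_norm_le m x (amb_fst_le x m)
  have a2 := D.norm_le a1 (norm_snd_le (x m))
  unfold VV
  refine (norm_sub_le _ _).trans ?_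
  linarith

theorem core_eq_zero (D : Dat E T) (m : ℕ) (q : Q) (x : Amb E T)
    (h : DD q.t.lev ≤ eps m Φ q.s q.n x) : core D m Φ q x = 0 := by
  obtain ⟨s, n, t⟩ := q
  cases t with
  | ins =>
    have : DD 0 = 2 := by unfold DD; norm_num
    simp only [Tag.lev, this] at h
    simp only [core, psi_eq_zero h, zero_smul]
  | C j l =>
    simp only [Tag.lev, DD_succ] at h
    simp only [core, cC]
    split_ifs with hc
    · rw [clamp_eq, sub_self, zero_smul]
      refine (hc.2.2.2 x).trans ?_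
      have h1 : del l ≤ max (eps m Φ s n x - DD l) 0 := le_max_of_le_left (by linarith)
      have h2 := mul_pos (lam_pos l) (ww_pos s)
      nlinarith
    · simp
  | L j v =>
    have : DD 0 = 2 := by unfold DD; norm_num
    simp only [Tag.lev, this] at h
    simp only [core, cL]
    split_ifs with hc
    · rw [max_eq_right (by linarith), mul_zero, min_eq_left (le_max_right _ _), clamp_zero]
      simp
    · simp

theorem core_ne_zero (D : Dat E T) {m : ℕ} {q : Q} {x : Amb E T} (h : core D m Φ q x ≠ 0) :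
    eps m Φ q.s q.n x < 3 := by
  by_contra hc
  exact h (core_eq_zero D m q x ((DD_lt _).le.trans (not_lt.mp hc)))

theorem lip_smul_e0 (D : Dat E T) {L : ℝ} {c : Amb E T → ℝ} (h : Lip L c) :
    Lip L (fun x => c x • D.e0) := by
  intro x y
  rw [← sub_smul, norm_smul, D.he0, mul_one]
  exact h x y

theorem cC_bound_lip (hΦ : Reg Φ) (m : ℕ) (s : ℤ) (n : List ℤ) (l : ℕ) (x y : Amb E T) :
    |lam l * ww s * max (eps m Φ s n x - DD l) 0 - lam l * ww s * max (eps m Φ s n y - DD l) 0| ≤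
      lam l * ‖x - y‖ := by
  have h1 := eps_lip_ww hΦ m s n x y
  have h2 := abs_max_sub_max_le_abs (eps m Φ s n x - DD l) (eps m Φ s n y - DD l) 0
  rw [sub_sub_sub_cancel_right] at h2
  have h3 := lam_pos l
  have h4 := ww_pos s
  rw [← mul_sub, abs_mul, abs_of_pos (mul_pos h3 h4), mul_assoc]
  refine mul_le_mul_of_nonneg_left ?_ h3.le
  have := mul_le_mul_of_nonneg_left h2 h4.le
  have := norm_nonneg (x - y)
  linarith

theorem cC_lip (hΦ : Reg Φ) (m : ℕ) (s : ℤ) (n : List ℤ) (j l : ℕ) :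
    Lip (2 * lam l) (cC m Φ s n j l) := by
  intro x y
  have h3 := lam_pos l
  unfold cC
  split_ifs with hc
  · have a1 := hc.2.2.1 x y
    rw [Real.norm_eq_abs] at a1 ⊢
    have a2 := cC_bound_lip hΦ m s n l x y
    have a3 := (clamp_lip (Φ j x) _ (Φ j y) _).trans (max_le a1 a2)
    rw [sub_sub_sub_comm]
    refine (abs_sub _ _).trans ?_
    linarith
  · simp only [sub_self, norm_zero]; positivity

theorem cL_bound_lip (hΦ : Reg Φ) (m : ℕ) (s : ℤ) (n : List ℤ) (x y : Amb E T) :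
    |rr s * max (2 - eps m Φ s n x) 0 - rr s * max (2 - eps m Φ s n y) 0| ≤
      1 / 300 * ‖x - y‖ := by
  have h1 := eps_lip_ww hΦ m s n x y
  have h2 := abs_max_sub_max_le_abs (2 - eps m Φ s n x) (2 - eps m Φ s n y) 0
  rw [sub_sub_sub_cancel_left, abs_sub_comm (eps m Φ s n y)] at h2
  have h4 := ww_pos s
  rw [← mul_sub, abs_mul, abs_of_pos (rr_pos s)]
  unfold rr
  have := mul_le_mul_of_nonneg_left h2 h4.le
  have := norm_nonneg (x - y)
  linarith

/-- Variation of the erasing term of the second kind in terms of the variation of `u`. -/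
theorem cL_core_le (hΦ : Reg Φ) (m : ℕ) (s : ℤ) (n : List ℤ) (x y : Amb E T) (u u' : ℝ) {L : ℝ}
    (hL : 1 / 300 ≤ L) (h : |u - u'| ≤ L * ‖x - y‖) :
    |clamp u (min (rr s * max (2 - eps m Φ s n x) 0) (max (2 * rr s - |u|) 0)) -
      clamp u' (min (rr s * max (2 - eps m Φ s n y) 0) (max (2 * rr s - |u'|) 0))| ≤
      L * ‖x - y‖ := by
  refine (clamp_lip _ _ _ _).trans (max_le h ((abs_min_sub_min_le_max _ _ _ _).trans (max_le ?_ ?_)))
  · exact (cL_bound_lip hΦ m s n x y).trans (mul_le_mul_of_nonneg_right hL (norm_nonneg _))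
  · refine (abs_max_sub_max_le_abs _ _ _).trans ?_
    rw [sub_sub_sub_cancel_left]
    refine (abs_abs_sub_abs_le_abs_sub _ _).trans ?_
    rwa [abs_sub_comm]

theorem cL_lip (hΦ : Reg Φ) (m : ℕ) (s : ℤ) (n : List ℤ) (j : ℕ) (v : ℤ) :
    Lip (1 / 100) (cL m Φ s n j v) := by
  intro x y
  unfold cL
  split_ifs with hc
  · have a1 := hc.2 x y
    rw [Real.norm_eq_abs] at a1 ⊢
    rw [neg_sub_neg, abs_sub_comm]
    refine cL_core_le hΦ m s n x y _ _ (by norm_num) ?_
    rwa [sub_sub_sub_cancel_right]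
  · simp only [sub_self, norm_zero]; positivity

theorem core_lip_aux (hΦ : Reg Φ) (D : Dat E T) (m : ℕ) (q : Q) (hq : q.t ≠ .ins) :
    Lip (1 / 50) (core D m Φ q) := by
  obtain ⟨s, n, t⟩ := q
  cases t with
  | ins => exact absurd rfl hq
  | C j l =>
    exact (lip_smul_e0 D (cC_lip hΦ m s n j l)).mono (by have := lam_le l; linarith)
  | L j v => exact (lip_smul_e0 D (cL_lip hΦ m s n j v)).mono (by norm_num)

theorem core_lip_lev (hΦ : Reg Φ) (D : Dat E T) (m : ℕ) (q : Q) (l : ℕ) (hq : q.t.lev = l + 1) :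
    Lip (2 * lam l) (core D m Φ q) := by
  obtain ⟨s, n, t⟩ := q
  cases t with
  | ins => simp [Tag.lev] at hq
  | C j l' =>
    obtain rfl : l' = l := by simpa [Tag.lev] using hq
    exact lip_smul_e0 D (cC_lip hΦ m s n j l')
  | L j v => simp [Tag.lev] at hq

theorem av_self_sub_le (hΦ : Reg Φ) (m : ℕ) (x x' : Amb E T) :
    ‖Av m Φ x (x m).1 - Av m Φ x' (x' m).1‖ ≤ ‖x - x'‖ + 4 * ‖x - x'‖ / 1000 := by
  have := av_move2 hΦ m x x' (a := (x m).1) (a' := (x' m).1) (C := 1) (M := ‖x - x'‖)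
    zero_le_one (fun q => by rw [one_mul]; exact amb_fst_le x m q)
    (fun q => by rw [one_mul]; exact amb_fst_le x' m q) (amb_fst_sub_le x x' m)
  simpa using this

theorem VV_sub_le (hΦ : Reg Φ) (D : Dat E T) (m : ℕ) (x x' : Amb E T) :
    ‖VV D m Φ x - VV D m Φ x'‖ ≤ 5 / 2 * (‖x - x'‖ + 4 * ‖x - x'‖ / 1000) := by
  have a1 := av_self_sub_le hΦ m x x'
  have a2 : ‖(x m).2 - (x' m).2‖ ≤ ‖x - x'‖ + 4 * ‖x - x'‖ / 1000 := by
    have := amb_snd_sub_le x x' m
    have := norm_nonneg (x - x')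
    linarith
  have a3 := D.norm_le a1 a2
  unfold VV
  rw [sub_sub_sub_comm, ← map_sub, Prod.mk_sub_mk]
  refine (norm_sub_le _ _).trans ?_
  linarith

theorem core_lip (hΦ : Reg Φ) (D : Dat E T) (m : ℕ) (q : Q) : Lip 3 (core D m Φ q) := by
  by_cases hq : q.t = .ins
  · obtain ⟨s, n, t⟩ := q
    obtain rfl : t = .ins := hq
    intro x x'
    have a1 := psi_smul_sub_le hΦ m s n x x' (C := 5 / 2) (by norm_num) (VV_norm_le (Φ := Φ) D m x)
      (VV_norm_le (Φ := Φ) D m x')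
    have a2 := VV_sub_le hΦ D m x x'
    have := norm_nonneg (x - x')
    simp only [core]
    linarith
  · exact (core_lip_aux hΦ D m q hq).mono (by norm_num)

theorem core_amp_aux (D : Dat E T) (m : ℕ) (q : Q) (hq : q.t ≠ .ins) (x : Amb E T) :
    ‖core D m Φ q x‖ ≤ 1 / 100 * ‖x m‖ := by
  by_cases h0 : core D m Φ q x = 0
  · rw [h0, norm_zero]; positivity
  have h1 := (eps_lt ((core_ne_zero D h0).trans (by norm_num))).1
  obtain ⟨s, n, t⟩ := q
  have hw := ww_pos s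
  simp only at h1
  cases t with
  | ins => exact absurd rfl hq
  | C j l =>
    simp only [core, cC, norm_smul, D.he0, mul_one, Real.norm_eq_abs]
    split_ifs with hc
    · have h3 := lam_pos l
      refine (abs_clamp_sub_le _ (by positivity)).trans ((hc.2.2.2 x).trans ?_)
      have a1 : lam l * del l ≤ 1 / 100 * (1 / 2) :=
        mul_le_mul (lam_le l) (del_le l) (del_pos l).le (by norm_num)
      nlinarith
    · simp only [abs_zero]; positivity
  | L j v =>
    simp only [core, cL, norm_smul, D.he0, mul_one, Real.norm_eq_abs]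
    split_ifs with hc
    · have h3 := rr_pos s
      rw [abs_neg]
      refine (abs_clamp_le _ (le_min (by positivity) (le_max_right _ _))).trans
        ((min_le_right _ _).trans (max_le ?_ (by positivity)))
      have := abs_nonneg (Φ j x - v * rr s)
      unfold rr at *
      linarith
    · simp only [abs_zero]; positivity

theorem core_amp (D : Dat E T) (m : ℕ) (q : Q) (x : Amb E T) :
    ‖core D m Φ q x‖ ≤ 5 / 2 * ‖x m‖ := by
  by_cases hq : q.t = .ins
  · obtain ⟨s, n, t⟩ := q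
    obtain rfl : t = .ins := hq
    simp only [core, norm_smul, Real.norm_eq_abs]
    rw [abs_of_nonneg (psi_nonneg _)]
    exact (mul_le_of_le_one_left (norm_nonneg _) (psi_le_one _)).trans (VV_norm_le D m x)
  · have := core_amp_aux (Φ := Φ) D m q hq x
    have := norm_nonneg (x m)
    linarith

theorem core_amp_WW (D : Dat E T) (m : ℕ) (q : Q) (x : Amb E T) :
    ‖core D m Φ q x‖ ≤ 5 / 2 * WW q.s := by
  by_cases h0 : core D m Φ q x = 0
  · rw [h0, norm_zero]; have := WW_pos q.s; positivity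
  have h1 := (eps_lt ((core_ne_zero D h0).trans (by norm_num))).2
  have := core_amp (Φ := Φ) D m q x
  linarith

theorem core_finite (hΦ : Reg Φ) (D : Dat E T) (m : ℕ) (s : ℤ) :
    {q : Q | q.s = s ∧ ∃ x, core D m Φ q x ≠ 0}.Finite := by
  classical
  choose b hb using fun j => (hΦ j).2
  set B : ℝ := ∑ j ∈ Finset.range m, |b j| with hB
  have hB1 : ∀ j < m, ∀ x, |Φ j x| ≤ B := fun j hj x =>
    (hb j x).trans ((le_abs_self _).trans (Finset.single_le_sum (f := fun j => |b j|)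
      (fun _ _ => abs_nonneg _) (Finset.mem_range.mpr hj)))
  have hW := WW_pos s
  have hr := rr_pos s
  obtain ⟨N, hN⟩ := exists_nat_ge (B / rr s + 2)
  have f1 := dst_finite m (B / WW s)
  have f2 : ({Tag.ins} ∪ ((fun p : ℕ × ℕ => Tag.C p.1 p.2) '' (Set.Iio m ×ˢ Set.Iio m)) ∪
      ((fun p : ℕ × ℤ => Tag.L p.1 p.2) '' (Set.Iio m ×ˢ Set.Icc (-(N : ℤ)) N)) : Set Tag).Finite :=
    ((Set.finite_singleton _).union (((Set.finite_Iio m).prod (Set.finite_Iio m)).image _)).union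
      (((Set.finite_Iio m).prod (Set.finite_Icc _ _)).image _)
  refine ((f1.prod f2).image (fun p => (⟨s, p.1, p.2⟩ : Q))).subset ?_
  rintro ⟨s', n, t⟩ ⟨rfl, x, hx⟩
  refine ⟨(n, t), ⟨⟨pos Φ s' x, fun j hj => ?_, ?_⟩, ?_⟩, rfl⟩
  · unfold pos
    rw [abs_div, abs_mul, abs_of_pos hW, abs_of_pos (bet_pos j)]
    refine div_le_div_of_nonneg_right ?_ hW.le
    have a1 := hB1 j hj x
    have a2 := bet_le j
    have a3 := bet_pos j
    nlinarith [abs_nonneg (Φ j x)]
  · exact (le_max_right _ _).trans_lt ((core_ne_zero D hx).trans (by norm_num))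
  · cases t with
    | ins => simp
    | C j l =>
      simp only [core, cC] at hx
      split_ifs at hx with hc
      · exact Or.inl (Or.inr ⟨(j, l), ⟨hc.1, hc.2.1⟩, rfl⟩)
      · simp at hx
    | L j v =>
      simp only [core, cL] at hx
      split_ifs at hx with hc
      · refine Or.inr ⟨(j, v), ⟨hc.1, ?_⟩, rfl⟩
        have a1 : |Φ j x - v * rr s'| < 2 * rr s' := by
          by_contra h2
          rw [max_eq_right (b := 0) (a := 2 * rr s' - _) (by linarith),
            min_eq_right (by positivity), clamp_zero] at hx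
          simp at hx
        have a2 := hB1 j hc.1 x
        have a3 : |(v : ℝ)| * rr s' ≤ B + 2 * rr s' := by
          have : |(v : ℝ) * rr s'| ≤ |Φ j x| + |Φ j x - v * rr s'| := by
            have := abs_sub (Φ j x) (Φ j x - v * rr s')
            rwa [sub_sub_cancel] at this
          rw [abs_mul, abs_of_pos hr] at this
          linarith
        have a4 : |(v : ℝ)| ≤ N := by
          refine le_trans ?_ hN
          rw [div_add' _ _ _ hr.ne', le_div_iff₀ hr]
          exact a3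
        have a5 : |v| ≤ (N : ℤ) := by exact_mod_cast a4
        exact abs_le.mp a5
      · simp at hx

theorem core_finite_at (hΦ : Reg Φ) (D : Dat E T) (m : ℕ) (x : Amb E T) :
    {q : Q | core D m Φ q x ≠ 0}.Finite := by
  obtain ⟨N, hN⟩ := exists_nat_ge (|sg ‖x m‖| + 4)
  refine ((Set.finite_Icc (-(N : ℤ)) N).biUnion (fun s _ => core_finite hΦ D m s)).subset ?_
  intro q hq
  simp only [Set.mem_iUnion]
  refine ⟨q.s, ?_, rfl, x, hq⟩
  have a1 : Es q.s ‖x m‖ < 4 :=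
    (le_max_left _ _).trans_lt ((core_ne_zero D hq).trans (by norm_num))
  rw [(Es_lt a1).2.2] at a1
  have a2 : |(q.s : ℝ)| ≤ N := by
    have := abs_sub (sg ‖x m‖) (sg ‖x m‖ - q.s)
    rw [sub_sub_cancel] at this
    linarith
  have a5 : |q.s| ≤ (N : ℤ) := by exact_mod_cast a2
  exact abs_le.mp a5

/-- The average of the image block recovers the pair (average, inserted coordinate). -/
theorem av_image (D : Dat E T) (m : ℕ) (x : Amb E T) :
    Av m Φ x (fun q => (x m).1 q + core D m Φ q x) = D.U (Av m Φ x (x m).1, (x m).2) := by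
  rcases (norm_nonneg (x m)).eq_or_lt with h0 | hx
  · have a1 : ‖Av m Φ x (fun q => (x m).1 q + core D m Φ q x)‖ ≤ 0 := by
      refine av_norm_le m x (fun q => (norm_add_le _ _).trans ?_)
      have := amb_fst_le x m q
      have := core_amp (Φ := Φ) D m q x
      linarith
    have a2 : ‖Av m Φ x (x m).1‖ ≤ ‖x m‖ := av_norm_le m x (amb_fst_le x m)
    have a3 := D.norm_le a2 (norm_snd_le (x m))
    rw [norm_le_zero_iff.mp a1, norm_le_zero_iff.mp (a3.trans (by rw [← h0]; simp))]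
  · rw [av_eq_add m x hx (b := (x m).1) (c := VV D m Φ x)]
    · unfold VV; abel
    · intro s n h
      simp only [core, psi_eq_one h, one_smul]

/-- Truncation of the list of variables. -/
def tr (m : ℕ) (Φ : ℕ → Amb E T → ℝ) (j : ℕ) : Amb E T → ℝ := if j < m then Φ j else 0

theorem Reg.tr (hΦ : Reg Φ) (m : ℕ) : Reg (tr m Φ) := by
  intro j
  unfold R91.tr
  split_ifs
  · exact hΦ j
  · exact ⟨fun x y => by simp, 0, fun x => by simp⟩

theorem tr_of_lt {m j : ℕ} (h : j < m) : tr m Φ j = Φ j := if_pos h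

/-- The perturbation of the coordinate `i`. -/
def gg (D : Dat E T) (Φ : ℕ → Amb E T → ℝ) (i : Idx) : Amb E T → E :=
  core D i.1 (tr i.1 Φ) i.2

end Crest.Agent.R91
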