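import Crest.Agent.R91.Core

/-! Row 91: the insertion map is bi-Lipschitz and onto for the sup norms. -/

set_option autoImplicit false
open Filter Topology BoundedContinuousFunction

noncomputable section
namespace Crest.Agent.R91

variable {E T : Type} [NormedAddCommGroup E] [NormedSpace ℝ E] [NormedAddCommGroup T]
  [NormedSpace ℝ T] {Φ : ℕ → Amb E T → ℝ}

theorem sup_core_ins (D : Dat E T) (m : ℕ) (Ψ : ℕ → Amb E T → ℝ) (q : Q) (hq : q.t = .ins)
    (x : Amb E T) : core D m Ψ q x = psi (eps m Ψ q.s q.n x) • VV D m Ψ x := by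
  obtain ⟨s, n, t⟩ := q
  simp only at hq
  subst hq
  rfl

omit [NormedSpace ℝ E] [NormedSpace ℝ T] in
theorem sup_amb_le (x : Amb E T) {B : ℝ} (hB : 0 ≤ B) (h1 : ∀ m q, ‖(x m).1 q‖ ≤ B)
    (h2 : ∀ m, ‖(x m).2‖ ≤ B) : ‖x‖ ≤ B :=
  (BoundedContinuousFunction.norm_le hB).2 fun m =>
    norm_prod_le_iff.2 ⟨(BoundedContinuousFunction.norm_le hB).2 (h1 m), h2 m⟩

theorem sup_lower (hΦ : Reg Φ) (D : Dat E T) (x x' : Amb E T) {d : ℝ} (hd : 0 ≤ d)
    (h : ∀ i : Idx, ‖((x i.1).1 i.2 + gg D Φ i x) - ((x' i.1).1 i.2 + gg D Φ i x')‖ ≤ d) :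
    ‖x - x'‖ ≤ 7 / 2 * d := by
  have hδ : 0 ≤ ‖x - x'‖ := norm_nonneg _
  have key : ∀ m, (∀ q, ‖(x m).1 q - (x' m).1 q‖ ≤ 3 * d + 31 * ‖x - x'‖ / 1000) ∧
      ‖(x m).2 - (x' m).2‖ ≤ 3 * d + 31 * ‖x - x'‖ / 1000 := by
    intro m
    have hR := hΦ.tr m
    set Ψ := tr m Φ with hΨ
    have hy : ∀ (z : Amb E T) (q : Q), ‖(z m).1 q + core D m Ψ q z‖ ≤ 7 / 2 * ‖z m‖ := by
      intro z q
      have h1 := amb_fst_le z m q
      have h2 := core_amp (Φ := Ψ) D m q z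
      have h3 := norm_add_le ((z m).1 q) (core D m Ψ q z)
      linarith
    have hq : ∀ q, ‖((x m).1 q + core D m Ψ q x) - ((x' m).1 q + core D m Ψ q x')‖ ≤ d :=
      fun q => h (m, q)
    have h1 := av_move2 hR m x x' (C := 7 / 2) (by norm_num) (hy x) (hy x') hq
    rw [av_image, av_image, ← map_sub] at h1
    have h2 := (D.fst_le _).trans h1
    have h3 := (D.snd_le _).trans h1
    simp only [Prod.fst_sub, Prod.snd_sub] at h2 h3
    refine ⟨fun q => ?_, by linarith⟩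
    have h4 : ‖core D m Ψ q x - core D m Ψ q x'‖ ≤ 2 * d + 31 * ‖x - x'‖ / 1000 := by
      by_cases ht : q.t = .ins
      · rw [sup_core_ins D m Ψ q ht, sup_core_ins D m Ψ q ht]
        have h5 := psi_smul_sub_le hR m q.s q.n x x' (C := 5 / 2) (by norm_num)
          (VV_norm_le (Φ := Ψ) D m x) (VV_norm_le (Φ := Ψ) D m x')
        have e : VV D m Ψ x - VV D m Ψ x' =
            D.U ((Av m Ψ x (x m).1, (x m).2) - (Av m Ψ x' (x' m).1, (x' m).2)) -
              (Av m Ψ x (x m).1 - Av m Ψ x' (x' m).1) := by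
          rw [map_sub]; unfold VV; abel
        have h6 := norm_sub_le (D.U ((Av m Ψ x (x m).1, (x m).2) - (Av m Ψ x' (x' m).1, (x' m).2)))
          (Av m Ψ x (x m).1 - Av m Ψ x' (x' m).1)
        rw [← e] at h6
        linarith
      · have := core_lip_aux hR D m q ht x x'
        linarith
    have e : (x m).1 q - (x' m).1 q = (((x m).1 q + core D m Ψ q x) -
        ((x' m).1 q + core D m Ψ q x')) - (core D m Ψ q x - core D m Ψ q x') := by abel
    rw [e]
    have h7 := hq q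
    refine (norm_sub_le _ _).trans ?_
    linarith
  have := sup_amb_le (x - x') (B := 3 * d + 31 * ‖x - x'‖ / 1000) (by positivity)
    (fun m q => (key m).1 q) fun m => (key m).2
  linarith

/-- the correction used in the fixed point iteration -/
def supCorr (D : Dat E T) (m : ℕ) (Ψ : ℕ → Amb E T → ℝ) (a : Q → E) (x : Amb E T) (q : Q) : E :=
  if q.t = .ins then psi (eps m Ψ q.s q.n x) • (Av m Ψ x a - (D.U.symm (Av m Ψ x a)).1)
  else core D m Ψ q x

theorem sup_symm_fst (D : Dat E T) (A : E) : ‖(D.U.symm A).1‖ ≤ ‖A‖ := by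
  simpa using D.fst_le (D.U.symm A)

theorem sup_symm_snd (D : Dat E T) (A : E) : ‖(D.U.symm A).2‖ ≤ ‖A‖ := by
  simpa using D.snd_le (D.U.symm A)

theorem sup_psi_smul (e : ℝ) (V : E) : ‖psi e • V‖ ≤ ‖V‖ := by
  rw [norm_smul, Real.norm_of_nonneg (psi_nonneg e)]
  exact mul_le_of_le_one_left (norm_nonneg _) (psi_le_one e)

theorem supCorr_le (D : Dat E T) (m : ℕ) (Ψ : ℕ → Amb E T → ℝ) {a : Q → E} {r : ℝ}
    (ha : ∀ q, ‖a q‖ ≤ r) (x : Amb E T) (q : Q) :
    ‖supCorr D m Ψ a x q‖ ≤ 2 * r + 1 / 100 * ‖x m‖ := by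
  have hr : 0 ≤ r := (norm_nonneg _).trans (ha q)
  have h0 := norm_nonneg (x m)
  unfold supCorr
  split_ifs with h
  · have h1 := av_norm_le (Φ := Ψ) m x ha
    have h2 := sup_symm_fst D (Av m Ψ x a)
    have h3 := norm_sub_le (Av m Ψ x a) (D.U.symm (Av m Ψ x a)).1
    refine (sup_psi_smul _ _).trans ?_
    linarith
  · have := core_amp_aux (Φ := Ψ) D m q h x
    linarith

theorem supCorr_av (D : Dat E T) (m : ℕ) (Ψ : ℕ → Amb E T → ℝ) (a : Q → E) (x : Amb E T)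
    (hx : 0 < ‖x m‖) :
    Av m Ψ x (fun q => a q - supCorr D m Ψ a x q) = (D.U.symm (Av m Ψ x a)).1 := by
  have h := av_eq_add (Φ := Ψ) m x hx (a := a) (b := fun q => a q - supCorr D m Ψ a x q)
    (c := Av m Ψ x a - (D.U.symm (Av m Ψ x a)).1) fun s n hs => by
      simp only [supCorr, if_true, psi_eq_one hs, one_smul]
      abel
  have e : Av m Ψ x (fun q => a q - supCorr D m Ψ a x q) =
      Av m Ψ x a - (Av m Ψ x a - (D.U.symm (Av m Ψ x a)).1) := eq_sub_of_add_eq h.symm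
  rw [e]; abel

theorem supCorr_lower (D : Dat E T) (m : ℕ) (Ψ : ℕ → Amb E T → ℝ) (a : Q → E) (x : Amb E T)
    (hx : 0 < ‖x m‖) {ρ : ℝ} (h1 : ∀ q, ‖a q - supCorr D m Ψ a x q‖ ≤ ρ)
    (h2 : ‖(D.U.symm (Av m Ψ x a)).2‖ ≤ ρ) (q : Q) : ‖a q‖ ≤ 7 / 2 * ρ + 1 / 100 * ‖x m‖ := by
  have hρ : 0 ≤ ρ := (norm_nonneg _).trans h2
  have h3 := av_norm_le (Φ := Ψ) m x h1
  rw [supCorr_av D m Ψ a x hx] at h3
  have h4 := D.norm_le h3 h2
  rw [Prod.mk.eta, LinearEquiv.apply_symm_apply] at h4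
  have h5 : ‖supCorr D m Ψ a x q‖ ≤ 5 / 2 * ρ + 1 / 100 * ‖x m‖ := by
    unfold supCorr
    split_ifs with h
    · have h6 := norm_sub_le (Av m Ψ x a) (D.U.symm (Av m Ψ x a)).1
      refine (sup_psi_smul _ _).trans ?_
      linarith
    · have := core_amp_aux (Φ := Ψ) D m q h x
      linarith
  have h6 := norm_add_le (a q - supCorr D m Ψ a x q) (supCorr D m Ψ a x q)
  rw [sub_add_cancel] at h6
  have := h1 q
  linarith

theorem supCorr_lip {Ψ : ℕ → Amb E T → ℝ} (hΨ : Reg Ψ) (D : Dat E T) (m : ℕ) {a : Q → E} {r : ℝ}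
    (ha : ∀ q, ‖a q‖ ≤ r) (x x' : Amb E T) (hx : r / 4 ≤ ‖x m‖) (hx' : r / 4 ≤ ‖x' m‖) :
    (∀ q, ‖supCorr D m Ψ a x q - supCorr D m Ψ a x' q‖ ≤ 1 / 2 * ‖x - x'‖) ∧
      ‖(D.U.symm (Av m Ψ x a)).2 - (D.U.symm (Av m Ψ x' a)).2‖ ≤ 1 / 2 * ‖x - x'‖ := by
  have hδ := norm_nonneg (x - x')
  have h1 := av_move hΨ m x x' (a := a) (C := 4) (by norm_num) fun q => by
    have : r / 4 ≤ min ‖x m‖ ‖x' m‖ := le_min hx hx'
    have := ha q
    linarith
  have h2 := sup_symm_fst D (Av m Ψ x a - Av m Ψ x' a)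
  have h3 := sup_symm_snd D (Av m Ψ x a - Av m Ψ x' a)
  rw [map_sub] at h2 h3
  simp only [Prod.fst_sub, Prod.snd_sub] at h2 h3
  refine ⟨fun q => ?_, by linarith⟩
  unfold supCorr
  split_ifs with h
  · have hV : ∀ z : Amb E T, r / 4 ≤ ‖z m‖ →
        ‖Av m Ψ z a - (D.U.symm (Av m Ψ z a)).1‖ ≤ 8 * ‖z m‖ := by
      intro z hz
      have h4 := av_norm_le (Φ := Ψ) m z ha
      have h5 := sup_symm_fst D (Av m Ψ z a)
      have h6 := norm_sub_le (Av m Ψ z a) (D.U.symm (Av m Ψ z a)).1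
      linarith
    have h4 := psi_smul_sub_le hΨ m q.s q.n x x' (C := 8) (by norm_num) (hV x hx) (hV x' hx')
    have e : (Av m Ψ x a - (D.U.symm (Av m Ψ x a)).1) - (Av m Ψ x' a - (D.U.symm (Av m Ψ x' a)).1) =
        (Av m Ψ x a - Av m Ψ x' a) - ((D.U.symm (Av m Ψ x a)).1 - (D.U.symm (Av m Ψ x' a)).1) := by
      abel
    have h5 := norm_sub_le (Av m Ψ x a - Av m Ψ x' a)
      ((D.U.symm (Av m Ψ x a)).1 - (D.U.symm (Av m Ψ x' a)).1)
    rw [← e] at h5
    linarith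
  · have := core_lip_aux hΨ D m q h x x'
    linarith

theorem sup_surj [CompleteSpace E] [CompleteSpace T] (hΦ : Reg Φ) (D : Dat E T) (y : Idx → E)
    {M : ℝ} (hy : ∀ i, ‖y i‖ ≤ M) :
    ∃ x : Amb E T, (∀ i : Idx, (x i.1).1 i.2 + gg D Φ i x = y i) ∧
      ∀ m, (∀ q, y (m, q) = 0) → x m = 0 := by
  have hM : 0 ≤ M := (norm_nonneg _).trans (hy (0, ⟨0, [], .ins⟩))
  let Y : ℕ → (Q →ᵇ E) := fun m => ofNormedAddCommGroupDiscrete (fun q => y (m, q)) M fun q => hy _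
  have hY : ∀ m q, ‖y (m, q)‖ ≤ ‖Y m‖ := fun m q => (Y m).norm_coe_le_norm q
  have hYM : ∀ m, ‖Y m‖ ≤ M := fun m => (BoundedContinuousFunction.norm_le hM).2 fun q => hy _
  have hb : ∀ (x : Amb E T) m q, ‖y (m, q) - supCorr D m (tr m Φ) (fun q => y (m, q)) x q‖ ≤
      3 * ‖Y m‖ + 1 / 100 * ‖x m‖ := by
    intro x m q
    have h1 := supCorr_le D m (tr m Φ) (hY m) x q
    have h2 := hY m q
    refine (norm_sub_le _ _).trans ?_
    linarith
  have hb2 : ∀ (x : Amb E T) m,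
      ‖(D.U.symm (Av m (tr m Φ) x fun q => y (m, q))).2‖ ≤ ‖Y m‖ := fun x m =>
    (sup_symm_snd D _).trans (av_norm_le m x (hY m))
  let B : Amb E T → ℕ → Blk E T := fun x m =>
    (ofNormedAddCommGroupDiscrete (fun q => y (m, q) - supCorr D m (tr m Φ) (fun q => y (m, q)) x q)
      _ (hb x m), (D.U.symm (Av m (tr m Φ) x fun q => y (m, q))).2)
  have hB : ∀ x m, ‖B x m‖ ≤ 3 * ‖Y m‖ + 1 / 100 * ‖x m‖ := by
    intro x m
    have h0 := norm_nonneg (Y m)
    have h1 := norm_nonneg (x m)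
    refine norm_prod_le_iff.2 ⟨(BoundedContinuousFunction.norm_le (by positivity)).2 (hb x m), ?_⟩
    have := hb2 x m
    simp only [B]
    linarith
  let F : Amb E T → Amb E T := fun x =>
    ofNormedAddCommGroupDiscrete (B x) (3 * M + 1 / 100 * ‖x‖) fun m => by
      have h1 := hB x m
      have h2 := hYM m
      have h3 := x.norm_coe_le_norm m
      linarith
  have hF1 : ∀ x m q, (F x m).1 q = y (m, q) - supCorr D m (tr m Φ) (fun q => y (m, q)) x q :=
    fun _ _ _ => rfl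
  have hF2 : ∀ x m, (F x m).2 = (D.U.symm (Av m (tr m Φ) x fun q => y (m, q))).2 :=
    fun _ _ => rfl
  let S : Set (Amb E T) := {x | ∀ m, ‖Y m‖ / 4 ≤ ‖x m‖ ∧ ‖x m‖ ≤ 4 * ‖Y m‖}
  have hSc : IsClosed S := by
    simp only [S, Set.ofPred_forall]
    refine isClosed_iInter fun m => IsClosed.and (isClosed_le ?_ ?_) (isClosed_le ?_ ?_) <;>
      fun_prop
  have hFS : Set.MapsTo F S S := by
    intro x hx m
    have h0 := norm_nonneg (Y m)
    have h1 : ‖F x m‖ ≤ 3 * ‖Y m‖ + 1 / 100 * ‖x m‖ := hB x m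
    obtain ⟨h2, h3⟩ := hx m
    refine ⟨?_, by linarith⟩
    rcases h0.eq_or_lt with h4 | h4
    · rw [← h4]; simp
    · have h5 := supCorr_lower D m (tr m Φ) (fun q => y (m, q)) x (by linarith) (ρ := ‖F x m‖)
        (fun q => amb_fst_le (F x) m q) (norm_snd_le (F x m))
      have h6 : ‖Y m‖ ≤ 7 / 2 * ‖F x m‖ + 1 / 100 * ‖x m‖ :=
        (BoundedContinuousFunction.norm_le (by positivity)).2 h5
      linarith
  have hC : ContractingWith (1 / 2) (hFS.restrict F S S) := by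
    refine ⟨by norm_num, LipschitzWith.of_dist_le_mul fun x x' => ?_⟩
    rw [Subtype.dist_eq, Subtype.dist_eq, dist_eq_norm, dist_eq_norm]
    have h1 := fun m => supCorr_lip (hΦ.tr m) D m (hY m) x.1 x'.1 (x.2 m).1 (x'.2 m).1
    refine sup_amb_le (F x.1 - F x'.1) (by positivity) (fun m q => ?_) fun m => ?_
    · have e : ((F x.1 - F x'.1) m).1 q = -(supCorr D m (tr m Φ) (fun q => y (m, q)) x.1 q -
          supCorr D m (tr m Φ) (fun q => y (m, q)) x'.1 q) := by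
        change (F x.1 m).1 q - (F x'.1 m).1 q = _
        rw [hF1, hF1]; abel
      rw [e, norm_neg]
      simpa using (h1 m).1 q
    · simpa [hF2] using (h1 m).2
  let x₀ : Amb E T := ofNormedAddCommGroupDiscrete (fun m => (Y m, 0)) M fun m =>
    norm_prod_le_iff.2 ⟨hYM m, by simpa using hM⟩
  have hx₀ : x₀ ∈ S := fun m => by
    have e : ‖x₀ m‖ = ‖Y m‖ := by
      change ‖(Y m, (0 : T))‖ = _
      simp [Prod.norm_def]
    have h0 := norm_nonneg (Y m)
    rw [e]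
    constructor <;> linarith
  obtain ⟨x, hxS, hx, -⟩ := hC.exists_fixedPoint' hSc.isComplete hFS hx₀ (edist_ne_top _ _)
  have hx' : F x = x := hx
  refine ⟨x, ?_, fun m hm => ?_⟩
  · rintro ⟨m, q⟩
    have h1 : (x m).1 q = y (m, q) - supCorr D m (tr m Φ) (fun q => y (m, q)) x q := by
      rw [← hF1, hx']
    change (x m).1 q + core D m (tr m Φ) q x = y (m, q)
    rw [h1]
    suffices h : supCorr D m (tr m Φ) (fun q => y (m, q)) x q = core D m (tr m Φ) q x by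
      rw [h]; abel
    rcases (norm_nonneg (x m)).eq_or_lt with h0 | h0
    · have h2 := core_amp (Φ := tr m Φ) D m q x
      have h3 := supCorr_le D m (tr m Φ) (hY m) x q
      have h4 := (hxS m).1
      rw [← h0] at h2 h3 h4
      rw [norm_le_zero_iff.1 (h2.trans (by norm_num)), norm_le_zero_iff.1 (h3.trans (by linarith))]
    · by_cases ht : q.t = .ins
      · have h2 := supCorr_av D m (tr m Φ) (fun q => y (m, q)) x h0
        have h3 : (fun q => y (m, q) - supCorr D m (tr m Φ) (fun q => y (m, q)) x q) =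
            ((x m).1 : Q → E) := by
          funext q
          rw [← hF1, hx']
        rw [h3] at h2
        have h4 : (x m).2 = (D.U.symm (Av m (tr m Φ) x fun q => y (m, q))).2 := by
          rw [← hF2, hx']
        rw [sup_core_ins D m _ q ht, supCorr, if_pos ht, VV, h2, h4, Prod.mk.eta,
          LinearEquiv.apply_symm_apply]
      · rw [supCorr, if_neg ht]
  · have h1 : ‖Y m‖ ≤ 0 := (BoundedContinuousFunction.norm_le le_rfl).2 fun q => by
      change ‖y (m, q)‖ ≤ 0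
      rw [hm q, norm_zero]
    have h2 := (hxS m).2
    exact norm_le_zero_iff.1 (by linarith)

theorem gg_finite (hΦ : Reg Φ) (D : Dat E T) (x : Amb E T) (hx : {m | x m ≠ 0}.Finite) :
    {i : Idx | gg D Φ i x ≠ 0}.Finite := by
  refine (hx.biUnion fun m _ => (core_finite_at (hΦ.tr m) D m x).image (Prod.mk m)).subset ?_
  rintro ⟨m, q⟩ hi
  refine Set.mem_biUnion (x := m) (fun h0 => hi ?_) ⟨q, hi, rfl⟩
  have := core_amp (Φ := tr m Φ) D m q x
  rw [h0, norm_zero, mul_zero] at this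
  exact norm_le_zero_iff.1 this

end Crest.Agent.R91
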