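import Crest.Agent.R91.Cases
import Crest.Agent.R91.Sup

/-! Row 91: a space without `c₀` absorbing `c₀(T)` by a bi-Lipschitz map. -/

set_option autoImplicit false
open Filter Topology BoundedContinuousFunction TopologicalSpace ZeroAtInfty
open scoped RealInnerProductSpace

noncomputable section
namespace Crest.Agent.R91

theorem main_bdd {I E : Type} [NormedAddCommGroup E] (z : I →₀ E) :
    ∃ C : ℝ, 0 ≤ C ∧ ∀ i, ‖z i‖ ≤ C := by
  refine ⟨∑ i ∈ z.support, ‖z i‖, Finset.sum_nonneg fun _ _ => norm_nonneg _, fun i => ?_⟩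
  by_cases h : i ∈ z.support
  · exact Finset.single_le_sum (f := fun i => ‖z i‖) (fun _ _ => norm_nonneg _) h
  · rw [Finsupp.notMem_support_iff.1 h, norm_zero]
    exact Finset.sum_nonneg fun _ _ => norm_nonneg _

theorem main_emb {E T : Type} [NormedAddCommGroup E] [NormedAddCommGroup T]
    (p : (Idx →₀ E) × (ℕ →₀ T)) :
    ∃ x : Amb E T, (∀ m q, (x m).1 q = p.1 (m, q)) ∧ ∀ m, (x m).2 = p.2 m := by
  obtain ⟨C, hC, h⟩ := main_bdd p.1
  obtain ⟨C', -, h'⟩ := main_bdd p.2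
  refine ⟨ofNormedAddCommGroupDiscrete (fun m =>
    (ofNormedAddCommGroupDiscrete (fun q => p.1 (m, q)) C (fun q => h _), p.2 m)) (max C C')
    fun m => ?_, fun _ _ => rfl, fun _ => rfl⟩
  exact max_le_max ((BoundedContinuousFunction.norm_le hC).2 fun q => h _) (h' m)

theorem main_amb_norm {E T : Type} [NormedAddCommGroup E] [NormedAddCommGroup T] (x : Amb E T)
    {C : ℝ} (hC : 0 ≤ C) (h1 : ∀ m q, ‖(x m).1 q‖ ≤ C) (h2 : ∀ m, ‖(x m).2‖ ≤ C) : ‖x‖ ≤ C :=
  (BoundedContinuousFunction.norm_le hC).2 fun m =>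
    max_le ((BoundedContinuousFunction.norm_le hC).2 (h1 m)) (h2 m)

theorem main_of_dat {E T : Type} [NormedAddCommGroup E] [InnerProductSpace ℝ E]
    [CompleteSpace E] [SeparableSpace E] [NormedAddCommGroup T] [NormedSpace ℝ T]
    [CompleteSpace T] (D : Dat E T) :
    ∃ (Z : Type) (_ : NormedAddCommGroup Z) (_ : NormedSpace ℝ Z), CompleteSpace Z ∧
      SeparableSpace Z ∧ NoC0 Z ∧ ∃ Ψ : Z × C₀(ℕ, T) → Z, Function.Bijective Ψ ∧
        ∀ s t, 2 / 7 * ‖s - t‖ ≤ ‖Ψ s - Ψ t‖ ∧ ‖Ψ s - Ψ t‖ ≤ 4 * ‖s - t‖ := by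
  classical
  let dv : ℕ → E := fun n => Nat.casesOn n D.e0 (denseSeq E)
  have hdv : DenseRange dv := by
    refine Dense.mono ?_ (denseRange_denseSeq E)
    rintro _ ⟨n, rfl⟩
    exact ⟨n + 1, rfl⟩
  obtain ⟨Φ, hΦ⟩ := exists_good D dv
  obtain ⟨Z, i1, i2, hZ1, hZ2, hZ3, ι, hι, hc, hn⟩ :=
    exists_space (Adm D Φ) (fun f hf => hf.1) (nc_adm hdv rfl hΦ)
  refine ⟨Z, i1, i2, hZ1, hZ2, hZ3, ?_⟩
  choose emb e1 e2 using main_emb (E := E) (T := T)
  have hfin : ∀ p, {m | emb p m ≠ 0}.Finite := by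
    intro p
    refine ((p.1.support.finite_toSet.image Prod.fst).union p.2.support.finite_toSet).subset
      fun m hm => ?_
    by_contra h
    rw [Set.mem_union, not_or] at h
    refine hm (Prod.ext ?_ ?_)
    · ext q
      rw [e1]
      by_contra h'
      exact h.1 ⟨(m, q), Finsupp.mem_support_iff.2 h', rfl⟩
    · rw [e2]
      exact Finsupp.notMem_support_iff.1 h.2
  let gz : (Idx →₀ E) × (ℕ →₀ T) → Idx →₀ E := fun p =>
    Finsupp.ofSupportFinite (fun i => gg D Φ i (emb p)) (gg_finite hΦ.reg D _ (hfin p))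
  have hgz : ∀ p i, gz p i = gg D Φ i (emb p) := fun _ _ => rfl
  have hpair : ∀ p q, ∀ f ∈ Adm D Φ, |pair f (gz p - gz q)| ≤ 1 / 100 * ‖emb p - emb q‖ := by
    intro p q f hf
    rw [pair_sub_right]
    exact hf.2 (emb p) (emb q)
  refine ext_bilip (fun p : (Idx →₀ E) × (ℕ →₀ T) => (ι p.1, toC0 p.2))
    (fun p => ι (p.1 + gz p)) (hι.prodMap (dense_toC0 T)) ?_ (by norm_num) fun p q => ⟨?_, ?_⟩
  · refine Dense.mono ?_ hι
    rintro _ ⟨y, rfl⟩
    obtain ⟨M, -, hM⟩ := main_bdd y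
    obtain ⟨x, hx, hx0⟩ := sup_surj hΦ.reg D y hM
    have hxf : {m | x m ≠ 0}.Finite := by
      refine (y.support.finite_toSet.image Prod.fst).subset fun m hm => ?_
      by_contra h
      refine hm (hx0 m fun q => ?_)
      by_contra h'
      exact h ⟨(m, q), Finsupp.mem_support_iff.2 h', rfl⟩
    let g : Idx →₀ E := Finsupp.ofSupportFinite (fun i => gg D Φ i x) (gg_finite hΦ.reg D _ hxf)
    have htf : (Function.support fun m => (x m).2).Finite :=
      hxf.subset fun m hm h => hm (by simp [h])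
    let p : (Idx →₀ E) × (ℕ →₀ T) := (y - g, Finsupp.ofSupportFinite _ htf)
    have hp : emb p = x := by
      ext m q
      · rw [e1]
        exact (eq_sub_of_add_eq (hx (m, q))).symm
      · rw [e2]
        rfl
    refine ⟨p, congrArg ι ?_⟩
    ext i
    rw [Finsupp.add_apply, hgz, hp]
    exact sub_add_cancel (y i) (g i)
  · set e := ‖ι (p.1 + gz p) - ι (q.1 + gz q)‖ with he
    have he0 : 0 ≤ e := norm_nonneg _
    rw [← map_sub] at he
    have h1 : ‖emb p - emb q‖ ≤ 7 / 2 * e := by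
      refine sup_lower hΦ.reg D _ _ he0 fun i => ?_
      rw [e1, e1, he]
      exact hc (p.1 + gz p - (q.1 + gz q)) i
    have h2 : ‖toC0 p.2 - toC0 q.2‖ ≤ 7 / 2 * e := by
      refine c0_norm_le _ (by positivity) fun k => ?_
      have := amb_snd_sub_le (emb p) (emb q) k
      rw [e2, e2] at this
      exact this.trans h1
    have h3 : ‖ι p.1 - ι q.1‖ ≤ 7 / 2 * e := by
      have e3 : p.1 - q.1 = (p.1 + gz p - (q.1 + gz q)) + (gz q - gz p) := by abel
      rw [← map_sub, e3]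
      refine hn _ _ _ (1 / 100 * (7 / 2 * e)) (by positivity) (fun i => ?_) (by linarith)
        fun f hf => ?_
      · rw [← Finsupp.add_apply, ← e3]
        have := amb_fst_sub_le (emb p) (emb q) i.1 i.2
        rw [e1, e1] at this
        exact this.trans h1
      · refine (hpair q p f hf).trans ?_
        rw [norm_sub_rev]
        linarith
    have h4 : ‖((ι p.1, toC0 p.2) - (ι q.1, toC0 q.2) : Z × C₀(ℕ, T))‖ ≤ 7 / 2 * e := max_le h3 h2
    linarith
  · set d := ‖((ι p.1, toC0 p.2) - (ι q.1, toC0 q.2) : Z × C₀(ℕ, T))‖ with hd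
    have hd0 : 0 ≤ d := norm_nonneg _
    have h1 : ‖ι (p.1 - q.1)‖ ≤ d := by
      rw [map_sub]
      exact le_max_left _ _
    have h2 : ‖toC0 p.2 - toC0 q.2‖ ≤ d := le_max_right _ _
    have h3 : ‖emb p - emb q‖ ≤ d := by
      refine main_amb_norm _ hd0 (fun m r => ?_) fun m => ?_
      · show ‖(emb p m).1 r - (emb q m).1 r‖ ≤ d
        rw [e1, e1]
        exact (hc (p.1 - q.1) (m, r)).trans h1
      · show ‖(emb p m).2 - (emb q m).2‖ ≤ d
        rw [e2, e2]
        exact (c0_apply_le (toC0 p.2 - toC0 q.2) m).trans h2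
    have e3 : p.1 + gz p - (q.1 + gz q) = (p.1 - q.1) + (gz p - gz q) := by abel
    show ‖ι (p.1 + gz p) - ι (q.1 + gz q)‖ ≤ 4 * d
    rw [← map_sub, e3]
    refine hn _ _ _ (1 / 100 * d) (by positivity) (fun i => ?_) (by linarith) fun f hf => ?_
    · have h4 := core_lip (hΦ.reg.tr i.1) D i.1 i.2 (emb p) (emb q)
      have h5 : ‖(gz p - gz q) i‖ ≤ 3 * ‖emb p - emb q‖ := h4
      have h6 := (hc (p.1 - q.1) i).trans h1
      have h7 := norm_add_le ((p.1 - q.1) i) ((gz p - gz q) i)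
      linarith
    · refine (hpair p q f hf).trans ?_
      linarith

theorem main (T : Type) [NormedAddCommGroup T] [InnerProductSpace ℝ T] [CompleteSpace T]
    [SeparableSpace T] (t0 : T) (ht0 : ‖t0‖ = 1) :
    ∃ (Z : Type) (_ : NormedAddCommGroup Z) (_ : NormedSpace ℝ Z), CompleteSpace Z ∧
      SeparableSpace Z ∧ NoC0 Z ∧ ∃ Ψ : Z × C₀(ℕ, T) → Z, Function.Bijective Ψ ∧
        ∀ s t, 2 / 7 * ‖s - t‖ ≤ ‖Ψ s - Ψ t‖ ∧ ‖Ψ s - Ψ t‖ ≤ 4 * ‖s - t‖ := by
  obtain ⟨D⟩ := exists_dat T t0 ht0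
  haveI := sep_lp2 T
  exact main_of_dat D

end Crest.Agent.R91
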