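import Crest.Agent.R91.Func

/-! Row 91: the Banach space generated by a family of finitely supported functionals. -/

set_option autoImplicit false
open Filter Topology TopologicalSpace
open scoped RealInnerProductSpace

noncomputable section
namespace Crest.Agent.R91

variable {I E : Type} [NormedAddCommGroup E] [InnerProductSpace ℝ E]

/-- Pairing of a finitely supported functional with a family of vectors. -/
def pair (f : I →₀ E) (z : I → E) : ℝ := f.sum (fun i v => ⟪v, z i⟫)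

theorem pair_zero_left (z : I → E) : pair (0 : I →₀ E) z = 0 := by
  simp [pair]

theorem pair_add_left (f h : I →₀ E) (z : I → E) : pair (f + h) z = pair f z + pair h z := by
  classical
  unfold pair
  rw [Finsupp.sum_add_index'] <;> intros <;> simp [inner_add_left]

theorem pair_single (i : I) (v : E) (z : I → E) : pair (Finsupp.single i v) z = ⟪v, z i⟫ := by
  unfold pair
  rw [Finsupp.sum_single_index]
  simp

theorem pair_sub_right (f : I →₀ E) (z z' : I → E) :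
    pair f (z - z') = pair f z - pair f z' := by
  simp [pair, Finsupp.sum, inner_sub_right, Finset.sum_sub_distrib]

theorem pair_congr (f : I →₀ E) {z z' : I → E} (h : ∀ i ∈ f.support, z i = z' i) :
    pair f z = pair f z' := by
  unfold pair Finsupp.sum
  exact Finset.sum_congr rfl (fun i hi => by simp only [h i hi])

/-- The family `𝒜` detects every coordinatewise null sequence of non-small vectors. -/
def NC (𝒜 : Set (I →₀ E)) : Prop :=
  ∀ (v : ℕ → I →₀ E) (ik : ℕ → I) (c M : ℝ), 0 < c → (∀ k, c ≤ ‖v k (ik k)‖) →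
    (∀ i, Tendsto (fun k => v k i) atTop (𝓝 0)) →
    ¬ ∀ f ∈ 𝒜, ∀ n : ℕ, f.support.card ≤ 4 ^ n → ∀ S : Finset ℕ,
      ∑ k ∈ S, |pair f (v k)| ≤ M * 2 ^ n

theorem pair_add_right (f : I →₀ E) (z z' : I → E) :
    pair f (z + z') = pair f z + pair f z' := by
  simp [pair, Finsupp.sum, inner_add_right, Finset.sum_add_distrib]

theorem pair_smul_right (f : I →₀ E) (r : ℝ) (z : I → E) : pair f (r • z) = r * pair f z := by
  simp [pair, Finsupp.sum, inner_smul_right, Finset.mul_sum]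

theorem sp_pair_le {f : I →₀ E} (hf : ∀ i, ‖f i‖ ≤ 2) (z : I → E) :
    |pair f z| ≤ 2 * ∑ i ∈ f.support, ‖z i‖ := by
  unfold pair Finsupp.sum
  rw [Finset.mul_sum]
  refine (Finset.abs_sum_le_sum_abs _ _).trans (Finset.sum_le_sum fun i _ => ?_)
  exact (abs_real_inner_le_norm _ _).trans (mul_le_mul_of_nonneg_right (hf i) (norm_nonneg _))

theorem sp_pair_le_l1 {f : I →₀ E} (hf : ∀ i, ‖f i‖ ≤ 2) (z : I →₀ E) :
    |pair f z| ≤ 2 * ∑ i ∈ z.support, ‖z i‖ := by
  classical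
  refine (sp_pair_le hf z).trans (mul_le_mul_of_nonneg_left ?_ zero_le_two)
  calc ∑ i ∈ f.support, ‖z i‖ ≤ ∑ i ∈ f.support ∪ z.support, ‖z i‖ :=
        Finset.sum_le_sum_of_subset_of_nonneg Finset.subset_union_left fun _ _ _ => norm_nonneg _
    _ = _ := (Finset.sum_subset Finset.subset_union_right fun i _ hi => by
        rw [Finsupp.notMem_support_iff.1 hi, norm_zero]).symm

theorem sp_pair_le_sup {f : I →₀ E} (hf : ∀ i, ‖f i‖ ≤ 2) {n : ℕ} (hn : f.support.card ≤ 4 ^ n)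
    (z : I → E) {c : ℝ} (hc : 0 ≤ c) (hz : ∀ i, ‖z i‖ ≤ c) : |pair f z| ≤ 2 * (4 ^ n * c) := by
  refine (sp_pair_le hf z).trans (mul_le_mul_of_nonneg_left ?_ zero_le_two)
  calc ∑ i ∈ f.support, ‖z i‖ ≤ f.support.card • c := Finset.sum_le_card_nsmul _ _ _ fun i _ => hz i
    _ ≤ _ := by
      rw [nsmul_eq_mul]
      exact mul_le_mul_of_nonneg_right (by exact_mod_cast hn) hc

theorem sp_l1_hasSum {X : ℕ → Type} [∀ n, NormedAddCommGroup (X n)] (g : lp X 1) :
    HasSum (fun n => ‖g n‖) ‖g‖ := by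
  simpa using lp.hasSum_norm (p := 1) (by simp) g

theorem sp_hump_step {X : ℕ → Type} [∀ n, NormedAddCommGroup (X n)] (G g : lp X 1)
    (F : Finset ℕ) :
    ‖G‖ + ‖g‖ ≤ ‖G + g‖ + 2 * (‖G‖ + ∑ n ∈ F, (‖g n‖ - ‖G n‖)) := by
  classical
  have h1 : HasSum (fun n => if n ∈ F then ‖g n‖ - ‖G n‖ else 0) (∑ n ∈ F, (‖g n‖ - ‖G n‖)) := by
    have := hasSum_sum_of_ne_finset_zero (L := SummationFilter.unconditional ℕ) (s := F)
      (f := fun n => if n ∈ F then ‖g n‖ - ‖G n‖ else 0) fun n hn => if_neg hn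
    rwa [Finset.sum_congr rfl fun n hn => if_pos hn] at this
  refine hasSum_le (fun n => ?_) ((sp_l1_hasSum G).add (sp_l1_hasSum g))
    ((sp_l1_hasSum (G + g)).add (((sp_l1_hasSum G).add h1).mul_left 2))
  have e : (G + g) n = G n + g n := rfl
  rw [e]
  split_ifs
  · have := norm_sub_le (G n + g n) (g n)
    rw [add_sub_cancel_right] at this
    linarith
  · have := norm_sub_le (G n + g n) (G n)
    rw [add_sub_cancel_left] at this
    linarith

/-- gliding hump -/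
theorem sp_hump {X : ℕ → Type} [∀ n, NormedAddCommGroup (X n)] (g : ℕ → lp X 1) {a : ℝ}
    (ha : 0 < a) (h1 : ∀ᶠ k in atTop, a ≤ ‖g k‖) (h2 : ∀ n, Tendsto (fun k => ‖g k n‖) atTop (𝓝 0))
    (N : ℕ) : ∃ S : Finset ℕ, N * (a / 2) ≤ ‖∑ k ∈ S, g k‖ := by
  classical
  induction N with
  | zero => exact ⟨∅, by simp⟩
  | succ N ih =>
    obtain ⟨S, hS⟩ := ih
    set G := ∑ k ∈ S, g k with hG
    have h3 : ∀ᶠ F : Finset ℕ in atTop, ‖G‖ - a / 8 < ∑ n ∈ F, ‖G n‖ :=
      (sp_l1_hasSum G).eventually (lt_mem_nhds (by linarith))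
    obtain ⟨F, hF⟩ := h3.exists
    have h4 : Tendsto (fun k => ∑ n ∈ F, ‖g k n‖) atTop (𝓝 0) := by
      simpa using tendsto_finsetSum F fun n _ => h2 n
    have h5 : ∀ᶠ k in atTop, k ∉ S := by
      rw [← Nat.cofinite_eq_atTop]
      exact S.eventually_cofinite_notMem
    obtain ⟨k, hk1, hk2, hk3⟩ :=
      (h1.and ((h4.eventually (gt_mem_nhds (by positivity : (0 : ℝ) < a / 8))).and h5)).exists
    refine ⟨insert k S, ?_⟩
    rw [Finset.sum_insert hk3, add_comm (g k), ← hG]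
    have h6 := sp_hump_step G (g k) F
    rw [Finset.sum_sub_distrib] at h6
    push_cast
    linarith

theorem sp_signs (a : ℕ → E) (S : Finset ℕ) : ∃ ε : ℕ → ℝ, (∀ k, |ε k| ≤ 1) ∧
    ∑ k ∈ S, ‖a k‖ ^ 2 ≤ ‖∑ k ∈ S, ε k • a k‖ ^ 2 := by
  classical
  induction S using Finset.induction_on with
  | empty => exact ⟨fun _ => 0, by simp, by simp⟩
  | insert k S hk ih =>
    obtain ⟨ε, h1, h2⟩ := ih
    set A := ∑ j ∈ S, ε j • a j with hA
    have key : ∀ σ : ℝ, |σ| = 1 → 0 ≤ σ * ⟪a k, A⟫ → ∃ ε : ℕ → ℝ, (∀ k, |ε k| ≤ 1) ∧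
        ∑ k ∈ insert k S, ‖a k‖ ^ 2 ≤ ‖∑ k ∈ insert k S, ε k • a k‖ ^ 2 := by
      intro σ hσ h3
      refine ⟨Function.update ε k σ, fun j => ?_, ?_⟩
      · by_cases h : j = k
        · subst h; simp [hσ]
        · rw [Function.update_of_ne h]; exact h1 j
      · have e : ∑ j ∈ S, Function.update ε k σ j • a j = A :=
          Finset.sum_congr rfl fun j hj => by
            rw [Function.update_of_ne (by rintro rfl; exact hk hj)]
        rw [Finset.sum_insert hk, Finset.sum_insert hk, e, Function.update_self, norm_add_sq_real,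
          norm_smul, Real.norm_eq_abs, hσ, one_mul, real_inner_smul_left]
        linarith
    rcases le_total 0 ⟪a k, A⟫ with h | h
    · exact key 1 abs_one (by linarith)
    · exact key (-1) (by simp) (by linarith)

theorem sp_null (a : ℕ → E) {M : ℝ}
    (h : ∀ (S : Finset ℕ) (ε : ℕ → ℝ), (∀ k, |ε k| ≤ 1) → ‖∑ k ∈ S, ε k • a k‖ ≤ M) :
    Tendsto a atTop (𝓝 0) := by
  have h1 : Summable fun k => ‖a k‖ ^ 2 := by
    refine summable_of_sum_le (c := M ^ 2) (fun k => sq_nonneg _) fun S => ?_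
    obtain ⟨ε, h2, h3⟩ := sp_signs a S
    exact h3.trans (pow_le_pow_left₀ (norm_nonneg _) (h S ε h2) 2)
  have h2 := h1.tendsto_atTop_zero.sqrt
  rw [tendsto_zero_iff_norm_tendsto_zero]
  simpa using h2

abbrev SpA (𝒜 : Set (I →₀ E)) (n : ℕ) : Type := {f : I →₀ E // f ∈ 𝒜 ∧ f.support.card ≤ 4 ^ n}

abbrev SpL (𝒜 : Set (I →₀ E)) : Type := lp (fun n : ℕ => lp (fun _ : SpA 𝒜 n => ℝ) ⊤) 1

abbrev SpW (𝒜 : Set (I →₀ E)) : Type := lp (fun _ : I => E) ⊤ × SpL 𝒜

section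
variable {𝒜 : Set (I →₀ E)} (h2 : ∀ f ∈ 𝒜, ∀ i, ‖f i‖ ≤ 2)

def spX (z : I →₀ E) (n : ℕ) : lp (fun _ : SpA 𝒜 n => ℝ) ⊤ :=
  ⟨fun f => (1 / 2) ^ (n + 1) * pair f.1 z, memℓp_infty
    ⟨(1 / 2) ^ (n + 1) * (2 * ∑ i ∈ z.support, ‖z i‖), by
      rintro _ ⟨f, rfl⟩
      simp only [norm_mul, Real.norm_eq_abs]
      rw [abs_of_nonneg (by positivity)]
      exact mul_le_mul_of_nonneg_left (sp_pair_le_l1 (h2 _ f.2.1) z) (by positivity)⟩⟩

theorem spX_apply (z : I →₀ E) (n : ℕ) (f : SpA 𝒜 n) :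
    spX h2 z n f = (1 / 2) ^ (n + 1) * pair f.1 z := rfl

theorem spX_le (z : I →₀ E) (n : ℕ) {t : ℝ} (ht : 0 ≤ t)
    (h : ∀ f ∈ 𝒜, f.support.card ≤ 4 ^ n → |pair f z| ≤ t) :
    ‖spX h2 z n‖ ≤ (1 / 2) ^ (n + 1) * t := by
  refine lp.norm_le_of_forall_le (by positivity) fun f => ?_
  rw [spX_apply, norm_mul, Real.norm_eq_abs, Real.norm_eq_abs, abs_of_nonneg (by positivity)]
  exact mul_le_mul_of_nonneg_left (h _ f.2.1 f.2.2) (by positivity)

theorem sp_geom (t : ℝ) : HasSum (fun n : ℕ => (1 / 2 : ℝ) ^ (n + 1) * t) t := by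
  have := hasSum_geometric_two.mul_right (1 / 2 * t)
  rw [show (2 : ℝ) * (1 / 2 * t) = t by ring] at this
  refine this.congr_fun ?_ |> id
  intro n; ring

def spG (z : I →₀ E) : SpL 𝒜 :=
  ⟨spX h2 z, memℓp_gen (by
    simp only [ENNReal.toReal_one, Real.rpow_one]
    exact Summable.of_nonneg_of_le (fun _ => norm_nonneg _)
      (fun n => spX_le h2 z n (by positivity) fun f hf _ => sp_pair_le_l1 (h2 f hf) z)
      (sp_geom _).summable)⟩

theorem spG_apply (z : I →₀ E) (n : ℕ) : spG h2 z n = spX h2 z n := rfl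

theorem spG_le (z : I →₀ E) {t : ℝ} (ht : 0 ≤ t) (h : ∀ f ∈ 𝒜, |pair f z| ≤ t) :
    ‖spG h2 z‖ ≤ t :=
  hasSum_le (fun n => spX_le h2 z n ht fun f hf _ => h f hf) (sp_l1_hasSum _) (sp_geom t)

def spF (z : I →₀ E) : lp (fun _ : I => E) ⊤ :=
  ⟨fun i => z i, memℓp_infty ⟨∑ i ∈ z.support, ‖z i‖, by
    rintro _ ⟨i, rfl⟩
    change ‖z i‖ ≤ _
    by_cases hi : i ∈ z.support
    · exact Finset.single_le_sum (f := fun i => ‖z i‖) (fun _ _ => norm_nonneg _) hi
    · rw [Finsupp.notMem_support_iff.1 hi, norm_zero]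
      positivity⟩⟩

def spI : (I →₀ E) →ₗ[ℝ] SpW 𝒜 where
  toFun z := (spF z, spG h2 z)
  map_add' z z' := by
    refine Prod.ext rfl ?_
    ext n f
    change (1 / 2) ^ (n + 1) * pair f.1 (z + z' : I →₀ E) =
      (1 / 2) ^ (n + 1) * pair f.1 z + (1 / 2) ^ (n + 1) * pair f.1 z'
    rw [Finsupp.coe_add, pair_add_right, mul_add]
  map_smul' r z := by
    refine Prod.ext rfl ?_
    ext n f
    change (1 / 2) ^ (n + 1) * pair f.1 (r • z : I →₀ E) = r * ((1 / 2) ^ (n + 1) * pair f.1 z)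
    rw [Finsupp.coe_smul, pair_smul_right]; ring

theorem spI_apply_le (z : I →₀ E) (i : I) : ‖z i‖ ≤ ‖spI h2 z‖ :=
  (lp.norm_apply_le_norm (by simp) (spF z) i).trans (norm_fst_le (spI h2 z))

theorem spI_pair_le (z : I →₀ E) {f : I →₀ E} (hf : f ∈ 𝒜) {n : ℕ} (hn : f.support.card ≤ 4 ^ n) :
    |pair f z| ≤ 2 * ‖spI h2 z‖ * 2 ^ n := by
  have h1 := lp.norm_apply_le_norm (by simp) (spX h2 z n) ⟨f, hf, hn⟩
  have h3 := lp.norm_apply_le_norm (by simp) (spG h2 z) n
  have h4 : ‖spG h2 z‖ ≤ ‖spI h2 z‖ := norm_snd_le (spI h2 z)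
  rw [spX_apply, norm_mul, Real.norm_eq_abs, Real.norm_eq_abs, abs_of_nonneg (by positivity)] at h1
  have h5 : (1 / 2 : ℝ) ^ (n + 1) * |pair f z| ≤ ‖spI h2 z‖ := h1.trans (h3.trans h4)
  have h6 : |pair f z| = 2 * ((1 / 2 : ℝ) ^ (n + 1) * |pair f z|) * 2 ^ n := by
    rw [one_div, inv_pow]; field_simp; ring
  rw [h6]
  exact mul_le_mul_of_nonneg_right (mul_le_mul_of_nonneg_left h5 zero_le_two) (by positivity)

theorem spI_le (z : I →₀ E) {C : ℝ} (hC : 0 ≤ C) (h : ∀ i, ‖z i‖ ≤ C) (h' : ‖spG h2 z‖ ≤ C) :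
    ‖spI h2 z‖ ≤ C :=
  norm_prod_le_iff.2 ⟨lp.norm_le_of_forall_le hC h, h'⟩

theorem spI_sep [Countable I] [SeparableSpace E] : IsSeparable (Set.range (spI h2)) := by
  classical
  have h0 : ∀ i : I, Continuous fun e : E => spI h2 (Finsupp.single i e) := fun i => by
    refine AddMonoidHomClass.continuous_of_bound ((spI h2).comp (Finsupp.lsingle i)) 2 fun e => ?_
    have h3 : ∑ j ∈ (Finsupp.single i e).support, ‖Finsupp.single i e j‖ ≤ ‖e‖ := by
      refine (Finset.sum_le_sum_of_subset_of_nonneg Finsupp.support_single_subset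
        fun _ _ _ => norm_nonneg _).trans ?_
      simp
    refine spI_le h2 (Finsupp.single i e) (by positivity) (fun j => ?_)
      (spG_le h2 _ (by positivity) fun f hf => (sp_pair_le_l1 (h2 f hf) _).trans (by linarith))
    rw [Finsupp.single_apply]
    split_ifs
    · linarith [norm_nonneg e]
    · simp
  have h1 : IsSeparable (⋃ i : I, Set.range fun e : E => spI h2 (Finsupp.single i e)) :=
    IsSeparable.iUnion fun i => isSeparable_range (h0 i)
  refine (h1.span (R := ℝ)).mono ?_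
  rintro _ ⟨t, rfl⟩
  induction t using Finsupp.induction_linear with
  | zero => rw [map_zero]; exact Submodule.zero_mem _
  | add f g hf hg => rw [map_add]; exact Submodule.add_mem _ hf hg
  | single k t => exact Submodule.subset_span (Set.mem_iUnion.2 ⟨k, t, rfl⟩)

theorem spI_noc0 (hNC : NC 𝒜) (v : ℕ → I →₀ E) {a M : ℝ} (ha : 0 < a)
    (hv : ∀ k, a ≤ ‖spI h2 (v k)‖)
    (h : ∀ (S : Finset ℕ) (ε : ℕ → ℝ), (∀ k, |ε k| ≤ 1) → ‖spI h2 (∑ k ∈ S, ε k • v k)‖ ≤ M) :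
    False := by
  classical
  have hnull : ∀ i, Tendsto (fun k => v k i) atTop (𝓝 0) := fun i =>
    sp_null (M := M) _ fun S ε hε => by
      have := (spI_apply_le h2 _ i).trans (h S ε hε)
      simpa [Finsupp.finsetSum_apply] using this
  by_cases hc : ∃ c : ℝ, 0 < c ∧ ∃ᶠ k in atTop, ∃ i, c ≤ ‖v k i‖
  · obtain ⟨c, hc0, hc⟩ := hc
    obtain ⟨φ, hφ, hφ'⟩ := extraction_of_frequently_atTop hc
    choose ik hik using hφ'
    refine hNC (fun k => v (φ k)) ik c (2 * M) hc0 hik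
      (fun i => (hnull i).comp hφ.tendsto_atTop) fun f hf n hn S => ?_
    let ε : ℕ → ℝ := fun j => if 0 ≤ pair f (v j) then 1 else -1
    have hε : ∀ j, |ε j| ≤ 1 := fun j => by
      simp only [ε]; split_ifs <;> simp
    have hε' : ∀ j, ε j * pair f (v j) = |pair f (v j)| := fun j => by
      simp only [ε]
      split_ifs with h0
      · rw [one_mul, abs_of_nonneg h0]
      · rw [abs_of_neg (not_le.1 h0)]; ring
    have e : ∀ S' : Finset ℕ, pair f (∑ j ∈ S', ε j • v j : I →₀ E) = ∑ j ∈ S', |pair f (v j)| := by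
      intro S'
      induction S' using Finset.induction_on with
      | empty => simp [pair]
      | insert j S' hj ih =>
        rw [Finset.sum_insert hj, Finset.sum_insert hj, Finsupp.coe_add, pair_add_right, ih,
          Finsupp.coe_smul, pair_smul_right, hε']
    have h3 := spI_pair_le h2 (∑ j ∈ S.image φ, ε j • v j) hf hn
    rw [e, Finset.sum_image fun _ _ _ _ h => hφ.injective h] at h3
    refine (le_abs_self _).trans (h3.trans ?_)
    exact mul_le_mul_of_nonneg_right (mul_le_mul_of_nonneg_left (h _ ε hε) zero_le_two)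
      (by positivity)
  · have hc' : ∀ c : ℝ, 0 < c → ∀ᶠ k in atTop, ∀ i, ‖v k i‖ ≤ c := by
      intro c hc0
      have h3 : ¬ ∃ᶠ k in atTop, ∃ i, c ≤ ‖v k i‖ := fun h' => hc ⟨c, hc0, h'⟩
      rw [not_frequently] at h3
      filter_upwards [h3] with k hk i
      exact (not_le.1 fun h' => hk ⟨i, h'⟩).le
    have h3 : ∀ᶠ k in atTop, a ≤ ‖spG h2 (v k)‖ := by
      filter_upwards [hc' (a / 2) (half_pos ha)] with k hk
      have h4 : ‖spF (v k)‖ ≤ a / 2 := lp.norm_le_of_forall_le (half_pos ha).le hk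
      have h5 : a ≤ max ‖spF (v k)‖ ‖spG h2 (v k)‖ := hv k
      rcases le_max_iff.1 h5 with h6 | h6
      · linarith
      · exact h6
    have h4 : ∀ n, Tendsto (fun k => ‖spG h2 (v k) n‖) atTop (𝓝 0) := by
      intro n
      rw [Metric.tendsto_nhds]
      intro δ hδ
      filter_upwards [hc' (δ / (4 * 4 ^ n)) (by positivity)] with k hk
      rw [dist_zero_right, norm_norm, spG_apply]
      have h5 := spX_le h2 (v k) n (t := 2 * (4 ^ n * (δ / (4 * 4 ^ n)))) (by positivity)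
        fun f hf hn => sp_pair_le_sup (h2 f hf) hn _ (by positivity) hk
      have h6 : (2 : ℝ) * (4 ^ n * (δ / (4 * 4 ^ n))) = δ / 2 := by field_simp; ring
      rw [h6] at h5
      have h7 : (1 / 2 : ℝ) ^ (n + 1) ≤ 1 := pow_le_one₀ (by norm_num) (by norm_num)
      have h8 := mul_le_of_le_one_left (half_pos hδ).le h7
      linarith
    obtain ⟨N, hN⟩ := exists_nat_gt (M / (a / 2))
    obtain ⟨S, hS⟩ := sp_hump (fun k => spG h2 (v k)) ha h3 h4 N
    have h5 := h S (fun _ => 1) fun _ => by simp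
    have h6 : ∑ k ∈ S, spG h2 (v k) = (spI h2 (∑ k ∈ S, (1 : ℝ) • v k)).2 := by
      simp only [one_smul, map_sum, Prod.snd_sum]
      rfl
    rw [h6] at hS
    have h7 := hS.trans ((norm_snd_le _).trans h5)
    rw [div_lt_iff₀ (half_pos ha)] at hN
    linarith

end

/-- The space: completion of `I →₀ E` for the norm
`max (sup ‖z i‖) (∑ n, 2^{-n-1} sup {|pair f z| : f ∈ 𝒜, card f.support ≤ 4^n})`. -/
theorem exists_space [Countable I] [CompleteSpace E] [SeparableSpace E] (𝒜 : Set (I →₀ E))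
    (h2 : ∀ f ∈ 𝒜, ∀ i, ‖f i‖ ≤ 2) (hNC : NC 𝒜) :
    ∃ (Z : Type) (_ : NormedAddCommGroup Z) (_ : NormedSpace ℝ Z), CompleteSpace Z ∧
      SeparableSpace Z ∧ NoC0 Z ∧ ∃ ι : (I →₀ E) →ₗ[ℝ] Z, DenseRange ι ∧
        (∀ z i, ‖z i‖ ≤ ‖ι z‖) ∧
        ∀ (z z' : I →₀ E) (C t : ℝ), 0 ≤ t → (∀ i, ‖z i + z' i‖ ≤ C) → ‖ι z‖ + t ≤ C →
          (∀ f ∈ 𝒜, |pair f z'| ≤ t) → ‖ι (z + z')‖ ≤ C := by
  let Z := (LinearMap.range (spI h2)).topologicalClosure
  let ι : (I →₀ E) →ₗ[ℝ] Z :=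
    (spI h2).codRestrict Z fun z => Submodule.le_topologicalClosure _ ⟨z, rfl⟩
  have hι : ∀ z, ‖ι z‖ = ‖spI h2 z‖ := fun _ => rfl
  have hd : DenseRange ι := by
    intro x
    rw [Metric.mem_closure_iff]
    intro ε hε
    obtain ⟨_, ⟨z, rfl⟩, hz⟩ := Metric.mem_closure_iff.1 x.2 ε hε
    exact ⟨ι z, ⟨z, rfl⟩, hz⟩
  refine ⟨Z, inferInstance, inferInstance, inferInstance, (spI_sep h2).closure.separableSpace, ?_,
    ι, hd, spI_apply_le h2, fun z z' C t ht h3 h4 h5 => ?_⟩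
  · intro u a M ha hu h
    have h3 : ∀ k : ℕ, ∃ z, ‖u k - ι z‖ < (1 / 2) ^ (k + 1) * (a / 2) := fun k => by
      obtain ⟨z, hz⟩ := hd.exists_dist_lt (u k) (ε := (1 / 2) ^ (k + 1) * (a / 2)) (by positivity)
      exact ⟨z, by rwa [dist_eq_norm] at hz⟩
    choose v hv using h3
    refine spI_noc0 h2 hNC v (a := a / 2) (M := M + a / 2) (half_pos ha) (fun k => ?_)
      fun S ε hε => ?_
    · rw [← hι]
      have h4 := norm_add_le (u k - ι (v k)) (ι (v k))
      rw [sub_add_cancel] at h4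
      have h5 : (1 / 2 : ℝ) ^ (k + 1) ≤ 1 := pow_le_one₀ (by norm_num) (by norm_num)
      have h6 := mul_le_of_le_one_left (half_pos ha).le h5
      have := hu k
      have := hv k
      linarith
    · rw [← hι]
      have e : ι (∑ k ∈ S, ε k • v k) = ∑ k ∈ S, ε k • u k - ∑ k ∈ S, ε k • (u k - ι (v k)) := by
        rw [map_sum, ← Finset.sum_sub_distrib]
        exact Finset.sum_congr rfl fun k _ => by rw [map_smul, smul_sub (ε k) (u k), sub_sub_cancel]
      rw [e]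
      refine (norm_sub_le _ _).trans (add_le_add (h S ε hε) ((norm_sum_le _ _).trans ?_))
      refine le_trans (Finset.sum_le_sum fun k _ => ?_)
        (sum_le_hasSum S (fun k _ => by positivity) (sp_geom (a / 2)))
      rw [norm_smul]
      exact (mul_le_of_le_one_left (norm_nonneg _) (hε k)).trans (hv k).le
  · rw [hι] at h4 ⊢
    have h6 := norm_nonneg (spI h2 z)
    refine spI_le h2 _ (by linarith) h3 ?_
    have e : spG h2 (z + z') = spG h2 z + spG h2 z' := congrArg Prod.snd (map_add (spI h2) z z')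
    have h7 : ‖spG h2 z‖ ≤ ‖spI h2 z‖ := norm_snd_le (spI h2 z)
    have h8 := spG_le h2 z' ht h5
    rw [e]
    refine (norm_add_le _ _).trans ?_
    linarith

end Crest.Agent.R91
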