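import Crest.Agent.R91.Core
import Crest.Agent.R91.Space

/-! Row 91: the recursive choice of the variables. -/

set_option autoImplicit false
open Filter Topology BoundedContinuousFunction TopologicalSpace
open scoped RealInnerProductSpace

noncomputable section
namespace Crest.Agent.R91

variable {E T : Type} [NormedAddCommGroup E] [InnerProductSpace ℝ E] [NormedAddCommGroup T]
  [NormedSpace ℝ T]

/-- The function on the ambient space attached to a functional. -/
def GG (D : Dat E T) (Φ : ℕ → Amb E T → ℝ) (f : Idx →₀ E) (x : Amb E T) : ℝ :=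
  pair f (fun i => gg D Φ i x)

/-- Functionals generated by entries in a countable family `dv`. -/
inductive InD (dv : ℕ → E) : (Idx →₀ E) → Prop
  | zero : InD dv 0
  | add {f : Idx →₀ E} (i : Idx) (a : ℕ) : InD dv f → InD dv (f + Finsupp.single i (dv a))

/-- The variables list all block norms and all `1`-Lipschitz coded functions. -/
structure Good (D : Dat E T) (dv : ℕ → E) (Φ : ℕ → Amb E T → ℝ) : Prop where
  reg : Reg Φ
  rho : ∀ m, ∃ j, ∀ x, Φ j x = min ‖x m‖ 1
  code : ∀ f, InD dv f → Lip 1 (GG D Φ f) → ∃ j, Φ j = GG D Φ f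

/-- Decoding a list of entries. -/
def rec_dec (dv : ℕ → E) : List (Idx × ℕ) → Idx →₀ E
  | [] => 0
  | p :: l => rec_dec dv l + Finsupp.single p.1 (dv p.2)

omit [InnerProductSpace ℝ E] in
theorem rec_dec_surj {dv : ℕ → E} {f : Idx →₀ E} (h : InD dv f) : ∃ l, rec_dec dv l = f := by
  induction h with
  | zero => exact ⟨[], rfl⟩
  | add i a _ ih =>
    obtain ⟨l, rfl⟩ := ih
    exact ⟨(i, a) :: l, rfl⟩

/-- Strong recursion. -/
def rec_fix (mk : ℕ → (ℕ → Amb E T → ℝ) → Amb E T → ℝ) (j : ℕ) : Amb E T → ℝ :=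
  mk j (fun j' => if _h : j' < j then rec_fix mk j' else 0)
termination_by j

omit [InnerProductSpace ℝ E] [NormedSpace ℝ T] in
theorem rec_fix_eq (mk : ℕ → (ℕ → Amb E T → ℝ) → Amb E T → ℝ) (j : ℕ) :
    rec_fix mk j = mk j (tr j (rec_fix mk)) := by
  rw [rec_fix]
  rfl

theorem rec_GG_tr (D : Dat E T) (Φ : ℕ → Amb E T → ℝ) (f : Idx →₀ E) {j : ℕ}
    (h : ∀ i ∈ f.support, i.1 ≤ j) : GG D (tr j Φ) f = GG D Φ f := by
  funext x
  refine pair_congr f fun i hi => ?_
  have : tr i.1 (tr j Φ) = tr i.1 Φ := by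
    funext j'
    by_cases hj : j' < i.1
    · rw [tr_of_lt hj, tr_of_lt hj, tr_of_lt (hj.trans_le (h i hi))]
    · simp only [tr, if_neg hj]
  simp only [gg, this]

theorem rec_GG_bdd (D : Dat E T) (Φ : ℕ → Amb E T → ℝ) (f : Idx →₀ E) :
    ∃ b, ∀ x, |GG D Φ f x| ≤ b :=
  ⟨∑ i ∈ f.support, ‖f i‖ * (5 / 2 * WW i.2.s), fun x =>
    (Finset.abs_sum_le_sum_abs _ _).trans (Finset.sum_le_sum fun i _ =>
      (abs_real_inner_le_norm _ _).trans
        (mul_le_mul_of_nonneg_left (core_amp_WW D i.1 i.2 x) (norm_nonneg _)))⟩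

theorem exists_good (D : Dat E T) (dv : ℕ → E) : ∃ Φ, Good D dv Φ := by
  classical
  obtain ⟨code, hcode⟩ := exists_surjective_nat (List (Idx × ℕ))
  let fs : ℕ → Idx →₀ E := fun j => rec_dec dv (code (Nat.unpair (j / 2)).1)
  let mk : ℕ → (ℕ → Amb E T → ℝ) → Amb E T → ℝ := fun j prev =>
    if j % 2 = 1 then fun x => min ‖x (j / 2)‖ 1
    else if Lip 1 (GG D prev (fs j)) then GG D prev (fs j) else 0
  refine ⟨rec_fix mk, fun j => ?_, fun m => ⟨2 * m + 1, fun x => ?_⟩, fun f hf hL => ?_⟩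
  · rw [rec_fix_eq]
    simp only [mk]
    split_ifs with h1 h2
    · refine ⟨fun x y => ?_, 1, fun x => ?_⟩
      · rw [Real.norm_eq_abs, one_mul]
        refine (abs_min_sub_min_le_max _ _ _ _).trans (max_le (amb_rho_sub_le x y _) ?_)
        simp
      · rw [abs_of_nonneg (le_min (norm_nonneg _) zero_le_one)]
        exact min_le_right _ _
    · exact ⟨h2, rec_GG_bdd D _ _⟩
    · exact ⟨fun x y => by simp, 0, fun x => by simp⟩
  · rw [rec_fix_eq]
    have h1 : (2 * m + 1) % 2 = 1 := by omega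
    have h2 : (2 * m + 1) / 2 = m := by omega
    simp only [mk, if_pos h1, h2]
  · obtain ⟨l, rfl⟩ := rec_dec_surj hf
    obtain ⟨n, rfl⟩ := hcode l
    set N := (rec_dec dv (code n)).support.sup Prod.fst with hN
    refine ⟨2 * Nat.pair n N, ?_⟩
    have h1 : ¬ (2 * Nat.pair n N) % 2 = 1 := by omega
    have h2 : (2 * Nat.pair n N) / 2 = Nat.pair n N := by omega
    have h3 : fs (2 * Nat.pair n N) = rec_dec dv (code n) := by
      simp only [fs, h2, Nat.unpair_pair]
    have h4 : GG D (tr (2 * Nat.pair n N) (rec_fix mk)) (rec_dec dv (code n))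
        = GG D (rec_fix mk) (rec_dec dv (code n)) := by
      refine rec_GG_tr D _ _ fun i hi => ?_
      have a1 : i.1 ≤ N := Finset.le_sup (f := Prod.fst) hi
      have a2 := Nat.right_le_pair n N
      omega
    rw [rec_fix_eq]
    change (if (2 * Nat.pair n N) % 2 = 1 then _ else
      if Lip 1 (GG D (tr (2 * Nat.pair n N) (rec_fix mk)) (fs (2 * Nat.pair n N))) then
        GG D (tr (2 * Nat.pair n N) (rec_fix mk)) (fs (2 * Nat.pair n N)) else 0) = _
    rw [if_neg h1, h3, h4, if_pos hL]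

/-- The admissible functionals. -/
def Adm (D : Dat E T) (Φ : ℕ → Amb E T → ℝ) : Set (Idx →₀ E) :=
  {f | (∀ i, ‖f i‖ ≤ 2) ∧ Lip (1 / 100) (GG D Φ f)}

end Crest.Agent.R91
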