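import Mathlib

/-! Row 91, elementary tools: real-constant Lipschitz predicate, pointwise version, clamp,
multilinear interpolation on integer lattices. -/

set_option autoImplicit false
open Filter Topology

noncomputable section
namespace Crest.Agent.R91

/-- Lipschitz with a real constant. -/
def Lip {B G : Type*} [NormedAddCommGroup B] [NormedAddCommGroup G] (L : ℝ) (F : B → G) : Prop :=
  ∀ x y, ‖F x - F y‖ ≤ L * ‖x - y‖

/-- Pointwise upper Lipschitz bound. -/
def Calm {B : Type*} [NormedAddCommGroup B] (L : ℝ) (F : B → ℝ) (x : B) : Prop :=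
  ∀ᶠ y in 𝓝 x, |F y - F x| ≤ L * ‖y - x‖

theorem Lip.continuous {B G : Type*} [NormedAddCommGroup B] [NormedAddCommGroup G] {L : ℝ}
    {F : B → G} (h : Lip L F) : Continuous F := by
  exact (LipschitzWith.of_dist_le' (K := L) fun x y => by
    rw [dist_eq_norm, dist_eq_norm]; exact h x y).continuous

theorem Lip.mono {B G : Type*} [NormedAddCommGroup B] [NormedAddCommGroup G] {L L' : ℝ}
    {F : B → G} (h : Lip L F) (hL : L ≤ L') : Lip L' F := by
  exact fun x y => (h x y).trans (mul_le_mul_of_nonneg_right hL (norm_nonneg _))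

theorem Lip.calm {B : Type*} [NormedAddCommGroup B] {L : ℝ} {F : B → ℝ} (h : Lip L F) (x : B) :
    Calm L F x := by
  exact Eventually.of_forall fun y => h y x

theorem lip_of_calm {B : Type*} [NormedAddCommGroup B] [NormedSpace ℝ B] {L : ℝ} {F : B → ℝ}
    (h : ∀ x, Calm L F x) : Lip L F := by
  have hc : Continuous F := by
    refine continuous_iff_continuousAt.2 fun x => ?_
    rw [ContinuousAt, tendsto_iff_norm_sub_tendsto_zero]
    refine squeeze_zero' (Eventually.of_forall fun _ => norm_nonneg _) (h x) ?_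
    have : Continuous fun y : B => L * ‖y - x‖ := by fun_prop
    simpa using this.tendsto x
  intro x y
  have hg : Continuous fun t : ℝ => y + t • (x - y) := by fun_prop
  have key : Set.Icc (0 : ℝ) 1 ⊆ {t | |F (y + t • (x - y)) - F y| ≤ L * ‖x - y‖ * t} := by
    refine IsClosed.Icc_subset_of_forall_mem_nhdsWithin
      ((isClosed_le (by fun_prop) (by fun_prop)).inter isClosed_Icc) (by simp) fun t ht => ?_
    have h1 := (hg.tendsto t).eventually (h (y + t • (x - y)))
    filter_upwards [mem_nhdsWithin_of_mem_nhds h1, self_mem_nhdsWithin] with t' h2 h3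
    have h4 : t < t' := h3
    have h5 : |F (y + t • (x - y)) - F y| ≤ L * ‖x - y‖ * t := ht.1
    rw [add_sub_add_left_eq_sub, ← sub_smul, norm_smul, Real.norm_eq_abs,
      abs_of_pos (sub_pos.2 h4)] at h2
    have h6 := abs_sub_le (F (y + t' • (x - y))) (F (y + t • (x - y))) (F y)
    show |F (y + t' • (x - y)) - F y| ≤ L * ‖x - y‖ * t'
    nlinarith
  have := key (Set.right_mem_Icc.2 zero_le_one)
  simpa using this

/-- Two `L`-Lipschitz functions living on the two sides of a level set add up to an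
`L`-Lipschitz function. -/
theorem Lip.glue {B : Type*} [NormedAddCommGroup B] [NormedSpace ℝ B] {L : ℝ} {F H : B → ℝ}
    (hF : Lip L F) (hH : Lip L H) {θ : B → ℝ} (hθ : Continuous θ) (t : ℝ)
    (h1 : ∀ x, θ x ≤ t → F x = 0) (h2 : ∀ x, t ≤ θ x → H x = 0) :
    Lip L (fun x => F x + H x) := by
  have key : ∀ x y, θ x ≤ t → t ≤ θ y → ‖(F x + H x) - (F y + H y)‖ ≤ L * ‖x - y‖ := by
    intro x y hx hy
    have hg : Continuous fun s : ℝ => θ (x + s • (y - x)) := by fun_prop
    obtain ⟨s, hs, e⟩ := intermediate_value_Icc zero_le_one hg.continuousOn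
      (show t ∈ Set.Icc _ _ from ⟨by simpa using hx, by simpa using hy⟩)
    have e' : θ (x + s • (y - x)) = t := e
    have a1 := hH x (x + s • (y - x))
    have a2 := hF (x + s • (y - x)) y
    rw [h2 _ e'.ge, sub_zero, sub_add_cancel_left, norm_neg, norm_smul, Real.norm_eq_abs s,
      abs_of_nonneg hs.1, norm_sub_rev y x] at a1
    have e2 : x + s • (y - x) - y = (1 - s) • (x - y) := by module
    rw [h1 _ e'.le, e2, norm_smul, Real.norm_eq_abs (1 - s), abs_of_nonneg (sub_nonneg.2 hs.2),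
      zero_sub, norm_neg] at a2
    rw [h1 x hx, h2 y hy, zero_add, add_zero]
    have := norm_sub_le (H x) (F y)
    nlinarith
  intro x y
  rcases le_total (θ x) t with hx | hx <;> rcases le_total (θ y) t with hy | hy
  · simpa only [h1 x hx, h1 y hy, zero_add] using hH x y
  · exact key x y hx hy
  · rw [norm_sub_rev, norm_sub_rev x]
    exact key y x hy hx
  · simpa only [h2 x hx, h2 y hy, add_zero] using hF x y

/-- Projection of `u` on `[-b, b]`. -/
def clamp (u b : ℝ) : ℝ := max (-b) (min u b)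

theorem clamp_lip (u b u' b' : ℝ) : |clamp u b - clamp u' b'| ≤ max |u - u'| |b - b'| := by
  unfold clamp
  refine (abs_max_sub_max_le_max _ _ _ _).trans (max_le ?_ (abs_min_sub_min_le_max _ _ _ _))
  rw [neg_sub_neg, abs_sub_comm]
  exact le_max_right _ _

theorem abs_clamp_le (u : ℝ) {b : ℝ} (hb : 0 ≤ b) : |clamp u b| ≤ b := by
  unfold clamp
  exact abs_le.2 ⟨le_max_left _ _, max_le (by linarith) (min_le_right _ _)⟩

theorem abs_clamp_le_abs (u : ℝ) {b : ℝ} (hb : 0 ≤ b) : |clamp u b| ≤ |u| := by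
  unfold clamp
  have h1 := le_abs_self u
  have h2 := neg_abs_le u
  have h3 := abs_nonneg u
  refine abs_le.2 ⟨le_max_of_le_right (le_min h2 (by linarith)),
    max_le (by linarith) ((min_le_left _ _).trans h1)⟩

theorem abs_clamp_sub_le (u : ℝ) {b : ℝ} (hb : 0 ≤ b) : |clamp u b - u| ≤ |u| := by
  unfold clamp
  have h1 := le_abs_self u
  have h2 := neg_abs_le u
  have h3 := abs_nonneg u
  refine abs_le.2 ⟨?_, ?_⟩
  · rw [le_sub_iff_add_le]
    exact le_max_of_le_right (le_min (by linarith) (by linarith))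
  · rw [sub_le_iff_le_add]
    exact max_le (by linarith) ((min_le_left _ _).trans (by linarith))

theorem clamp_eq {u b : ℝ} (h : |u| ≤ b) : clamp u b = u := by
  unfold clamp
  rw [min_eq_left (abs_le.1 h).2, max_eq_right (abs_le.1 h).1]

theorem clamp_zero (u : ℝ) : clamp u 0 = 0 := by
  unfold clamp
  rw [neg_zero]
  exact max_eq_left (min_le_right _ _)

section interp
variable {E : Type*} [NormedAddCommGroup E] [NormedSpace ℝ E]

/-- Piecewise linear interpolation of an integer-indexed family. -/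
def lerp (u : ℝ) (a : ℤ → E) : E := (1 - Int.fract u) • a ⌊u⌋ + Int.fract u • a (⌊u⌋ + 1)

theorem tools_near (u : ℝ) : |u - (⌊u⌋ : ℤ)| ≤ 1 ∧ |u - (⌊u⌋ + 1 : ℤ)| ≤ 1 := by
  have h1 := Int.floor_le u
  have h2 := Int.lt_floor_add_one u
  push_cast
  exact ⟨abs_le.2 ⟨by linarith, by linarith⟩, abs_le.2 ⟨by linarith, by linarith⟩⟩

theorem tools_conv (u : ℝ) {M : ℝ} {p q : E} (hp : ‖p‖ ≤ M) (hq : ‖q‖ ≤ M) :
    ‖(1 - Int.fract u) • p + Int.fract u • q‖ ≤ M := by
  have g1 := sub_nonneg.2 (Int.fract_lt_one u).le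
  have g2 := Int.fract_nonneg u
  refine (norm_add_le _ _).trans ?_
  rw [norm_smul, norm_smul, Real.norm_eq_abs, Real.norm_eq_abs, abs_of_nonneg g1, abs_of_nonneg g2]
  have k1 := mul_le_mul_of_nonneg_left hp g1
  have k2 := mul_le_mul_of_nonneg_left hq g2
  linarith

theorem lerp_sub_le {u M : ℝ} {a b : ℤ → E} (h : ∀ n : ℤ, |u - n| ≤ 1 → ‖a n - b n‖ ≤ M) :
    ‖lerp u a - lerp u b‖ ≤ M := by
  obtain ⟨h1, h2⟩ := tools_near u
  have e : lerp u a - lerp u b = (1 - Int.fract u) • (a ⌊u⌋ - b ⌊u⌋) +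
      Int.fract u • (a (⌊u⌋ + 1) - b (⌊u⌋ + 1)) := by
    unfold lerp; module
  rw [e]
  exact tools_conv u (h _ h1) (h _ h2)

theorem lerp_eq_add {u : ℝ} {a b : ℤ → E} {c : E} (h : ∀ n : ℤ, |u - n| ≤ 1 → a n = b n + c) :
    lerp u a = lerp u b + c := by
  obtain ⟨h1, h2⟩ := tools_near u
  unfold lerp
  rw [h _ h1, h _ h2]
  module

theorem lerp_norm_le {u M : ℝ} {a : ℤ → E} (h : ∀ n : ℤ, ‖a n‖ ≤ M) : ‖lerp u a‖ ≤ M := by
  exact tools_conv u (h _) (h _)

theorem lerp_lip {M : ℝ} {a : ℤ → E} (h : ∀ n : ℤ, ‖a n‖ ≤ M) (u u' : ℝ) :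
    ‖lerp u a - lerp u' a‖ ≤ 2 * M * |u - u'| := by
  have hM : 0 ≤ M := (norm_nonneg _).trans (h 0)
  have hd : ∀ n n' : ℤ, ‖a n - a n'‖ ≤ 2 * M := fun n n' =>
    (norm_sub_le _ _).trans (by linarith [h n, h n'])
  wlog huu : u ≤ u' generalizing u u'
  · rw [norm_sub_rev, abs_sub_comm]
    exact this u' u (le_of_not_ge huu)
  rw [abs_sub_comm, abs_of_nonneg (sub_nonneg.2 huu)]
  rcases le_or_gt 1 (u' - u) with h1 | h1
  · have := norm_sub_le (lerp u a) (lerp u' a)
    have h2 := lerp_norm_le (u := u) h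
    have h3 := lerp_norm_le (u := u') h
    nlinarith
  have f1 := Int.floor_add_fract u
  have f2 := Int.floor_add_fract u'
  have g1 := Int.fract_lt_one u
  have g2 := Int.fract_nonneg u'
  have hle : ⌊u⌋ ≤ ⌊u'⌋ := Int.floor_le_floor huu
  have hle' : ⌊u'⌋ ≤ ⌊u⌋ + 1 := by
    rw [← Int.floor_add_one]
    exact Int.floor_le_floor (by linarith)
  rcases hle.eq_or_lt with e | e
  · have e1 : lerp u a - lerp u' a = (u' - u) • (a ⌊u⌋ - a (⌊u⌋ + 1)) := by
      have : u' - u = Int.fract u' - Int.fract u := by rw [← e] at f2; linarith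
      unfold lerp
      rw [this, ← e]
      module
    rw [e1, norm_smul, Real.norm_eq_abs, abs_of_nonneg (sub_nonneg.2 huu), mul_comm]
    exact mul_le_mul_of_nonneg_right (hd _ _) (sub_nonneg.2 huu)
  · have e0 : ⌊u'⌋ = ⌊u⌋ + 1 := le_antisymm hle' e
    have e1 : lerp u a - lerp u' a = (1 - Int.fract u) • (a ⌊u⌋ - a (⌊u⌋ + 1)) +
        Int.fract u' • (a (⌊u⌋ + 1) - a (⌊u⌋ + 1 + 1)) := by
      unfold lerp
      rw [e0]
      module
    have e2 : u' - u = (1 - Int.fract u) + Int.fract u' := by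
      rw [e0] at f2; push_cast at f2; linarith
    rw [e1, e2]
    refine (norm_add_le _ _).trans ?_
    rw [norm_smul, norm_smul, Real.norm_eq_abs, Real.norm_eq_abs, abs_of_nonneg g2,
      abs_of_nonneg (sub_nonneg.2 g1.le)]
    have k1 := mul_le_mul_of_nonneg_left (hd ⌊u⌋ (⌊u⌋ + 1)) (sub_nonneg.2 g1.le)
    have k2 := mul_le_mul_of_nonneg_left (hd (⌊u⌋ + 1) (⌊u⌋ + 1 + 1)) g2
    linarith

/-- Multilinear interpolation in the coordinates `y 0, …, y (m-1)`; the head of the list goes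
with the last coordinate. -/
def Avg : ℕ → (ℕ → ℝ) → (List ℤ → E) → E
  | 0, _, a => a []
  | m + 1, y, a => lerp (y m) (fun n => Avg m y (fun ns => a (n :: ns)))

/-- Sup distance from `(y 0, …, y (m-1))` to a lattice point (`4` if the length is wrong). -/
def Dst : ℕ → (ℕ → ℝ) → List ℤ → ℝ
  | 0, _, [] => 0
  | 0, _, _ :: _ => 4
  | _ + 1, _, [] => 4
  | m + 1, y, n :: ns => max |y m - n| (Dst m y ns)

/-- Nearest lattice point. -/
def rnd : ℕ → (ℕ → ℝ) → List ℤ
  | 0, _ => []
  | m + 1, p => round (p m) :: rnd m p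

theorem avg_norm_le {M : ℝ} (m : ℕ) (y : ℕ → ℝ) {a : List ℤ → E} (h : ∀ n, ‖a n‖ ≤ M) :
    ‖Avg m y a‖ ≤ M := by
  induction m generalizing a with
  | zero => exact h _
  | succ m ih => exact lerp_norm_le fun n => ih fun ns => h _

theorem avg_sub_le {M : ℝ} (m : ℕ) (y : ℕ → ℝ) {a b : List ℤ → E} (h : ∀ n, ‖a n - b n‖ ≤ M) :
    ‖Avg m y a - Avg m y b‖ ≤ M := by
  induction m generalizing a b with
  | zero => exact h _
  | succ m ih => exact lerp_sub_le fun n _ => ih fun ns => h _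

theorem avg_eq_add (m : ℕ) (y : ℕ → ℝ) {a b : List ℤ → E} {c : E}
    (h : ∀ n, Dst m y n ≤ 1 → a n = b n + c) : Avg m y a = Avg m y b + c := by
  induction m generalizing a b with
  | zero => exact h _ zero_le_one
  | succ m ih => exact lerp_eq_add fun n hn => ih fun ns hns => h (n :: ns) (max_le hn hns)

theorem avg_lip {M : ℝ} (m : ℕ) (y y' : ℕ → ℝ) {a : List ℤ → E} (h : ∀ n, ‖a n‖ ≤ M) :
    ‖Avg m y a - Avg m y' a‖ ≤ 2 * M * ∑ j ∈ Finset.range m, |y j - y' j| := by
  induction m generalizing a with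
  | zero => simp [Avg]
  | succ m ih =>
    have h1 : ‖lerp (y m) (fun n => Avg m y (fun ns => a (n :: ns))) -
        lerp (y m) (fun n => Avg m y' (fun ns => a (n :: ns)))‖ ≤
        2 * M * ∑ j ∈ Finset.range m, |y j - y' j| := lerp_sub_le fun n _ => ih fun ns => h _
    have h2 := lerp_lip (a := fun n => Avg m y' (fun ns => a (n :: ns)))
      (fun n => avg_norm_le m y' fun ns => h _) (y m) (y' m)
    rw [Finset.sum_range_succ, mul_add]
    exact (norm_sub_le_norm_sub_add_norm_sub _ _ _).trans (add_le_add h1 h2)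

end interp

theorem dst_nonneg (m : ℕ) (y : ℕ → ℝ) (n : List ℤ) : 0 ≤ Dst m y n := by
  cases m <;> cases n <;> simp [Dst]

theorem dst_lip (m : ℕ) {y y' : ℕ → ℝ} {η : ℝ} (hη : 0 ≤ η) (h : ∀ j < m, |y j - y' j| ≤ η)
    (n : List ℤ) : |Dst m y n - Dst m y' n| ≤ η := by
  induction m generalizing n with
  | zero => cases n <;> simpa [Dst] using hη
  | succ m ih =>
    cases n with
    | nil => simpa [Dst] using hη
    | cons n ns =>
      refine (abs_max_sub_max_le_max _ _ _ _).trans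
        (max_le ?_ (ih (fun j hj => h j (by omega)) ns))
      refine (abs_abs_sub_abs_le_abs_sub _ _).trans ?_
      rw [sub_sub_sub_cancel_right]
      exact h m (by omega)

theorem dst_close (m : ℕ) (y y' : ℕ → ℝ) (n : List ℤ) (h : Dst m y n < 4) {j : ℕ} (hj : j < m) :
    |y j - y' j| ≤ Dst m y n + Dst m y' n := by
  induction m generalizing n with
  | zero => omega
  | succ m ih =>
    cases n with
    | nil => simp [Dst] at h
    | cons n ns =>
      have h1 : max |y m - n| (Dst m y ns) < 4 := h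
      show _ ≤ max |y m - n| (Dst m y ns) + max |y' m - n| (Dst m y' ns)
      rcases Nat.lt_succ_iff_lt_or_eq.1 hj with h2 | rfl
      · exact (ih ns ((le_max_right _ _).trans_lt h1) h2).trans
          (add_le_add (le_max_right _ _) (le_max_right _ _))
      · refine (abs_sub_le _ (n : ℝ) _).trans (add_le_add (le_max_left _ _) ?_)
        rw [abs_sub_comm]
        exact le_max_left _ _

theorem dst_rnd (m : ℕ) {y p : ℕ → ℝ} {η : ℝ} (hη : 0 ≤ η) (h : ∀ j < m, |y j - p j| ≤ η) :
    Dst m y (rnd m p) ≤ η + 1 / 2 := by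
  induction m with
  | zero => show (0 : ℝ) ≤ _; linarith
  | succ m ih =>
    refine max_le ?_ (ih fun j hj => h j (by omega))
    exact (abs_sub_le _ (p m) _).trans (add_le_add (h m (by omega)) (abs_sub_round _))

theorem dst_finite (m : ℕ) (b : ℝ) :
    {n : List ℤ | ∃ y : ℕ → ℝ, (∀ j < m, |y j| ≤ b) ∧ Dst m y n < 4}.Finite := by
  induction m with
  | zero =>
    refine (Set.finite_singleton []).subset ?_
    rintro n ⟨y, -, h⟩
    cases n with
    | nil => rfl
    | cons n ns => simp [Dst] at h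
  | succ m ih =>
    refine (((Set.finite_Icc (-⌈b + 4⌉) ⌈b + 4⌉).prod ih).image
      (fun p : ℤ × List ℤ => p.1 :: p.2)).subset ?_
    rintro n ⟨y, h1, h⟩
    cases n with
    | nil => simp [Dst] at h
    | cons n ns =>
      have h2 : max |y m - n| (Dst m y ns) < 4 := h
      have h3 := abs_lt.1 ((le_max_left _ _).trans_lt h2)
      have h4 := abs_le.1 (h1 m (by omega))
      have h5 := Int.le_ceil (b + 4)
      refine ⟨(n, ns), ⟨⟨?_, ?_⟩, y, fun j hj => h1 j (by omega),
        (le_max_right _ _).trans_lt h2⟩, rfl⟩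
      · have : ((-⌈b + 4⌉ : ℤ) : ℝ) ≤ n := by push_cast; linarith [h3.2, h4.1]
        exact_mod_cast this
      · have : (n : ℝ) ≤ (⌈b + 4⌉ : ℤ) := by linarith [h3.1, h4.2]
        exact_mod_cast this

end Crest.Agent.R91
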